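import Vale.Agent.P146.R2.H597.Num

/-!
# P146: choice of the parameters
-/

open Finset Filter Topology

namespace Vale.Agent.P146.R2

open Vale.Agent.P146.H453

/-- the basic scale `n^(1/8000)` -/
noncomputable def zz0 (n : ℕ) : ℝ := (n : ℝ) ^ (1 / 8000 : ℝ)

/-- the cut-off of the degrees -/
noncomputable def LL (n : ℕ) (t : ℝ) : ℕ := ⌈3 * Real.log n / (1 - t)⌉₊

/-- the norm parameter -/
noncomputable def qq (n : ℕ) (t : ℝ) : ℝ := 1 + (1 - t) / zz0 n ^ 8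

lemma zz0_pow (n : ℕ) : zz0 n ^ 8000 = n := by
  unfold zz0
  rw [← Real.rpow_natCast, ← Real.rpow_mul (Nat.cast_nonneg n)]
  norm_num

lemma tendsto_zz0 : Tendsto zz0 atTop atTop :=
  (tendsto_rpow_atTop (by norm_num)).comp tendsto_natCast_atTop_atTop

lemma log_le_zz0 : ∀ᶠ n : ℕ in atTop, Real.log n ≤ zz0 n := by
  have h := (isLittleO_log_rpow_atTop (r := 1 / 8000) (by norm_num)).bound one_pos
  have h2 := tendsto_natCast_atTop_atTop (R := ℝ) |>.eventually h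
  filter_upwards [h2, eventually_ge_atTop 1] with n hn h1
  rw [one_mul, Real.norm_eq_abs, Real.norm_eq_abs, abs_of_nonneg (Real.log_nonneg (by
    exact_mod_cast h1)), abs_of_nonneg (by positivity)] at hn
  exact hn

lemma exp_le_one_add {x : ℝ} (h0 : 0 ≤ x) (h1 : x ≤ 1) : Real.exp x ≤ 1 + 2 * x := by
  have h := Real.exp_bound' h0 h1 (n := 2) (by norm_num)
  norm_num [Finset.sum_range_succ] at h
  nlinarith

/-- the parameters satisfy all the requirements -/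
theorem params : ∀ᶠ n : ℕ in atTop, ∀ t : ℝ, 0 ≤ t → 1 / zz0 n ^ 2 ≤ 1 - t →
    (100 : ℝ) ≤ zz0 n ∧ 1 ≤ qq n t ∧ (LL n t : ℝ) + 1 ≤ zz0 n ^ 4 ∧
    (qq n t ^ LL n t) ^ 2 ≤ 1 + 1 / zz0 n ^ 4 ∧
    (∀ k ≤ LL n t, ((n : ℝ) / (n - (2 * LL n t + 2))) ^ k ≤ 1 + 1 / zz0 n ^ 4) ∧
    0 < (n : ℝ) - (2 * LL n t + 2) ∧
    (n : ℝ) * t ^ (LL n t + 1) ≤ 1 / zz0 n ^ 8 := by
  filter_upwards [tendsto_zz0.eventually_ge_atTop 100, log_le_zz0, eventually_ge_atTop 1]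
    with n hz hlog hn1 t ht0 hτ
  obtain ⟨z, hzz⟩ : ∃ z, z = zz0 n := ⟨_, rfl⟩
  have hzn : z ^ 8000 = n := by rw [hzz]; exact zz0_pow n
  rw [← hzz] at hz hlog hτ ⊢
  have hz0 : 0 < z := by linarith
  have hz1 : 1 ≤ z := by linarith
  obtain ⟨τ, hτ'⟩ : ∃ τ, τ = 1 - t := ⟨_, rfl⟩
  have hn0 : (0 : ℝ) < n := by exact_mod_cast hn1
  have hn1' : (1 : ℝ) ≤ n := by exact_mod_cast hn1
  have hl0 : 0 ≤ Real.log n := Real.log_nonneg hn1'
  rw [← hτ'] at hτ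
  have hτ0 : 0 < τ := lt_of_lt_of_le (by positivity) hτ
  have hτ1 : τ ≤ 1 := by rw [hτ']; linarith
  have hτi : 1 / τ ≤ z ^ 2 := by
    rw [div_le_iff₀ hτ0]
    have := mul_le_mul_of_nonneg_left hτ (by positivity : (0 : ℝ) ≤ z ^ 2)
    rwa [mul_one_div_cancel (by positivity)] at this
  obtain ⟨L, hL⟩ : ∃ L, L = LL n t := ⟨_, rfl⟩
  obtain ⟨q, hq⟩ : ∃ q, q = qq n t := ⟨_, rfl⟩
  rw [← hL, ← hq]
  have hLx : L = ⌈3 * Real.log n / τ⌉₊ := by rw [hL, LL, hτ']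
  have hqx : q = 1 + τ / z ^ 8 := by rw [hq, qq, hτ', hzz]
  have hL1 : (L : ℝ) ≤ 3 * Real.log n / τ + 1 := by
    rw [hLx]
    exact (Nat.ceil_lt_add_one (by positivity)).le
  have hL2 : 3 * Real.log n / τ ≤ L := by rw [hLx]; exact Nat.le_ceil _
  have hL3 : 3 * Real.log n / τ ≤ 3 * z ^ 3 := by
    have : 3 * Real.log n / τ = 3 * (Real.log n * (1 / τ)) := by ring
    rw [this]
    have h2 : Real.log n * (1 / τ) ≤ z * z ^ 2 := mul_le_mul hlog hτi (by positivity) hz0.le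
    calc 3 * (Real.log n * (1 / τ)) ≤ 3 * (z * z ^ 2) := by linarith
      _ = 3 * z ^ 3 := by ring
  have hz3 : 1 ≤ z ^ 3 := one_le_pow₀ hz1
  have hL4 : (L : ℝ) + 1 ≤ z ^ 4 := by
    have h1 : z ^ 4 = z * z ^ 3 := by ring
    have h2 : 100 * z ^ 3 ≤ z * z ^ 3 := mul_le_mul_of_nonneg_right hz (by positivity)
    rw [h1]
    linarith
  have hq1 : 1 ≤ q := by rw [hqx]; have : 0 ≤ τ / z ^ 8 := by positivity
                         linarith
  have hqe : ∀ m : ℕ, q ^ m ≤ Real.exp (m * (τ / z ^ 8)) := by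
    intro m
    rw [Real.exp_nat_mul]
    refine pow_le_pow_left₀ (by linarith) ?_ m
    rw [hqx]
    have := Real.add_one_le_exp (τ / z ^ 8)
    linarith
  have hsml : 6 * z + 2 ≤ z ^ 4 / 2 := by
    have h1 : z ^ 4 = z ^ 3 * z := by ring
    have h2 : (100 : ℝ) ^ 3 ≤ z ^ 3 := pow_le_pow_left₀ (by norm_num) hz 3
    have h3 : (100 : ℝ) ^ 3 * z ≤ z ^ 3 * z := mul_le_mul_of_nonneg_right h2 hz0.le
    rw [h1]
    norm_num at h3
    linarith
  have h4 : (q ^ L) ^ 2 ≤ 1 + 1 / z ^ 4 := by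
    have h5 : (q ^ L) ^ 2 ≤ Real.exp (2 * (L * (τ / z ^ 8))) := by
      have h6 := hqe L
      calc (q ^ L) ^ 2 ≤ Real.exp (L * (τ / z ^ 8)) ^ 2 := pow_le_pow_left₀ (by positivity) h6 2
        _ = Real.exp (2 * (L * (τ / z ^ 8))) := by
            rw [← Real.exp_nat_mul]
            norm_num
    have h7 : 2 * (L * (τ / z ^ 8)) ≤ 1 / (2 * z ^ 4) := by
      have h8 : (L : ℝ) * τ ≤ 3 * z + 1 := by
        calc (L : ℝ) * τ ≤ (3 * Real.log n / τ + 1) * τ := mul_le_mul_of_nonneg_right hL1 hτ0.le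
          _ = 3 * Real.log n + τ := by field_simp
          _ ≤ 3 * z + 1 := by linarith
      have h9 : 2 * (L * (τ / z ^ 8)) = 2 * (L * τ) / z ^ 8 := by ring
      rw [h9, div_le_div_iff₀ (by positivity) (by positivity)]
      have h10 : 2 * (L * τ) ≤ z ^ 4 / 2 := by linarith
      calc 2 * (L * τ) * (2 * z ^ 4) ≤ z ^ 4 / 2 * (2 * z ^ 4) :=
            mul_le_mul_of_nonneg_right h10 (by positivity)
        _ = 1 * z ^ 8 := by ring
    have h11 : 0 ≤ 2 * (L * (τ / z ^ 8)) := by positivity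
    have h12 : 1 / (2 * z ^ 4) ≤ 1 := by
      rw [div_le_one (by positivity)]
      have : 1 ≤ z ^ 4 := one_le_pow₀ hz1
      linarith
    refine h5.trans ((exp_le_one_add h11 (h7.trans h12)).trans ?_)
    have : 1 / z ^ 4 = 2 * (1 / (2 * z ^ 4)) := by field_simp
    linarith
  have hnz : z ^ 20 ≤ n := by rw [← hzn]; exact pow_le_pow_right₀ hz1 (by norm_num)
  have hz16 : (100 : ℝ) ^ 16 ≤ z ^ 16 := pow_le_pow_left₀ (by norm_num) hz 16
  have hpos : (n : ℝ) / 2 ≤ n - (2 * L + 2) := by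
    have h1 : 2 * L + 2 ≤ 2 * z ^ 4 := by linarith
    have h2 : z ^ 20 = z ^ 16 * z ^ 4 := by ring
    have h3 : (100 : ℝ) ^ 16 * z ^ 4 ≤ z ^ 16 * z ^ 4 :=
      mul_le_mul_of_nonneg_right hz16 (by positivity)
    have h4 : 0 ≤ z ^ 4 := by positivity
    have h5 : (4 : ℝ) * z ^ 4 ≤ (100 : ℝ) ^ 16 * z ^ 4 :=
      mul_le_mul_of_nonneg_right (by norm_num) h4
    linarith
  have hpos0 : 0 < (n : ℝ) - (2 * L + 2) := by linarith
  have h5 : ∀ k ≤ L, ((n : ℝ) / (n - (2 * L + 2))) ^ k ≤ 1 + 1 / z ^ 4 := by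
    intro k hk
    obtain ⟨D, hD⟩ : ∃ D, D = (n : ℝ) - (2 * L + 2) := ⟨_, rfl⟩
    rw [← hD] at hpos hpos0 ⊢
    have h1 : (n : ℝ) / D = 1 + (2 * L + 2) / D := by
      have hn2 : (n : ℝ) = D + (2 * L + 2) := by rw [hD]; ring
      have h0 : D ≠ 0 := hpos0.ne'
      calc (n : ℝ) / D = (D + (2 * L + 2)) / D := by rw [← hn2]
        _ = 1 + (2 * L + 2) / D := by rw [add_div, div_self h0]
    have h2 : (n : ℝ) / D ≤ Real.exp ((2 * L + 2) / D) := by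
      rw [h1]
      have := Real.add_one_le_exp ((2 * L + 2 : ℝ) / D)
      linarith
    have h3 : (1 : ℝ) ≤ n / D := by
      rw [h1]
      have : (0 : ℝ) ≤ (2 * L + 2) / D := by positivity
      linarith
    have h6 : (2 * L + 2 : ℝ) / D ≤ 4 * z ^ 4 / z ^ 20 := by
      have h7 : (2 * L + 2 : ℝ) / D ≤ (2 * L + 2) / (n / 2) :=
        div_le_div_of_nonneg_left (by positivity) (by positivity) hpos
      have h8 : (2 * L + 2 : ℝ) / (n / 2) = 4 * (L + 1) / n := by field_simp; ring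
      rw [h8] at h7
      refine h7.trans ?_
      refine div_le_div₀ (by positivity) ?_ (by positivity) hnz
      linarith
    have h9 : (L : ℝ) * ((2 * L + 2) / D) ≤ 1 / (2 * z ^ 4) := by
      calc (L : ℝ) * ((2 * L + 2) / D) ≤ z ^ 4 * (4 * z ^ 4 / z ^ 20) :=
            mul_le_mul (by linarith) h6 (by positivity) (by positivity)
        _ = 4 / z ^ 12 := by field_simp
        _ ≤ 1 / (2 * z ^ 4) := by
            rw [div_le_div_iff₀ (by positivity) (by positivity)]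
            have h13 : z ^ 12 = z ^ 8 * z ^ 4 := by ring
            have h14 : (100 : ℝ) ^ 8 ≤ z ^ 8 := pow_le_pow_left₀ (by norm_num) hz 8
            have h15 : (8 : ℝ) ≤ z ^ 8 := le_trans (by norm_num) h14
            have h16 := mul_le_mul_of_nonneg_right h15 (by positivity : 0 ≤ z ^ 4)
            rw [h13]
            linarith
    have h12 : 1 / (2 * z ^ 4) ≤ 1 := by
      rw [div_le_one (by positivity)]
      have : 1 ≤ z ^ 4 := one_le_pow₀ hz1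
      linarith
    calc ((n : ℝ) / D) ^ k ≤ ((n : ℝ) / D) ^ L := pow_le_pow_right₀ h3 hk
      _ ≤ Real.exp ((2 * L + 2) / D) ^ L := pow_le_pow_left₀ (by linarith) h2 L
      _ = Real.exp (L * ((2 * L + 2) / D)) := by rw [Real.exp_nat_mul]
      _ ≤ 1 + 2 * (L * ((2 * L + 2) / D)) := exp_le_one_add (by positivity) (h9.trans h12)
      _ ≤ 1 + 1 / z ^ 4 := by
          have : 1 / z ^ 4 = 2 * (1 / (2 * z ^ 4)) := by field_simp
          linarith
  have h6 : (n : ℝ) * t ^ (L + 1) ≤ 1 / z ^ 8 := by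
    have h1 : t ≤ Real.exp (-τ) := by
      have := Real.add_one_le_exp (-τ)
      rw [hτ'] at this ⊢
      linarith
    have h2 : t ^ (L + 1) ≤ Real.exp (-(3 * Real.log n)) := by
      calc t ^ (L + 1) ≤ Real.exp (-τ) ^ (L + 1) := pow_le_pow_left₀ ht0 h1 _
        _ = Real.exp (((L + 1 : ℕ) : ℝ) * (-τ)) := by rw [Real.exp_nat_mul]
        _ ≤ Real.exp (-(3 * Real.log n)) := by
            refine Real.exp_le_exp.2 ?_
            rw [div_le_iff₀ hτ0] at hL2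
            push_cast
            nlinarith
    have h3 : Real.exp (-(3 * Real.log n)) = 1 / (n : ℝ) ^ 3 := by
      rw [Real.exp_neg, one_div]
      congr 1
      have : (3 : ℝ) * Real.log n = Real.log n * (3 : ℕ) := by push_cast; ring
      rw [this, Real.exp_mul, Real.exp_log hn0, Real.rpow_natCast]
    rw [h3] at h2
    calc (n : ℝ) * t ^ (L + 1) ≤ n * (1 / (n : ℝ) ^ 3) := mul_le_mul_of_nonneg_left h2 hn0.le
      _ = 1 / (n : ℝ) ^ 2 := by field_simp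
      _ ≤ 1 / z ^ 8 := by
          refine one_div_le_one_div_of_le (by positivity) ?_
          calc z ^ 8 ≤ (z ^ 20) ^ 2 := by
                rw [← pow_mul]
                exact pow_le_pow_right₀ hz1 (by norm_num)
            _ ≤ (n : ℝ) ^ 2 := pow_le_pow_left₀ (by positivity) hnz 2
  exact ⟨hz, hq1, hL4, h4, h5, hpos0, h6⟩

/-- the last algebraic step -/
lemma num_end {K u M X : ℝ} (hK : 0 ≤ K) (hu0 : 0 < u) (huK : (1 + K) * u ≤ 1 / 200000)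
    (hM1 : 1 ≤ M) (hX : 0 ≤ X)
    (h : X ≤ (1 + u ^ 4) ^ 2 * (1 + u ^ 8) * M + (4000 + 1000 * K) * u ^ 8 +
      1000 * K * u ^ 8 * X) : X ≤ (1 + u) * M := by
  have hKu : 0 ≤ K * u := by positivity
  have hu1 : u ≤ 1 / 200000 := by linarith
  have f1 : (4000 + 1000 * K) * u ^ 8 ≤ u ^ 2 := by
    have g1 : (4000 + 1000 * K) * u ≤ 1 := by linarith
    have g2 : u ^ 7 ≤ u ^ 2 := pow_le_pow_of_le_one hu0.le (by linarith) (by norm_num)
    calc (4000 + 1000 * K) * u ^ 8 = ((4000 + 1000 * K) * u) * u ^ 7 := by ring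
      _ ≤ 1 * u ^ 7 := mul_le_mul_of_nonneg_right g1 (by positivity)
      _ ≤ u ^ 2 := by linarith
  have f2 : 1000 * K * u ^ 8 ≤ u ^ 2 := by
    refine le_trans ?_ f1
    refine mul_le_mul_of_nonneg_right (by linarith) (by positivity)
  have hu2 : u ^ 2 ≤ u * (1 / 200000) := by
    rw [sq]
    exact mul_le_mul_of_nonneg_left hu1 hu0.le
  have hu2p : 0 < u ^ 2 := by positivity
  have f3 : (1 + u ^ 4) ^ 2 * (1 + u ^ 8) ≤ 1 + u ^ 2 := by
    have g1 : u ^ 4 ≤ u ^ 2 * (1 / 100) := by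
      calc u ^ 4 = u ^ 2 * u ^ 2 := by ring
        _ ≤ u ^ 2 * (1 / 100) := mul_le_mul_of_nonneg_left (by linarith) (by positivity)
    have g2 : u ^ 8 ≤ u ^ 4 := pow_le_pow_of_le_one hu0.le (by linarith) (by norm_num)
    have g3 : u ^ 4 ≤ 1 := pow_le_one₀ hu0.le (by linarith)
    have g0 : 0 < u ^ 4 := by positivity
    have g44 : u ^ 4 * u ^ 4 ≤ 1 * u ^ 4 := mul_le_mul_of_nonneg_right g3 g0.le
    have g4 : (1 + u ^ 4) ^ 2 ≤ 1 + 3 * u ^ 4 := by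
      have : (1 + u ^ 4) ^ 2 = 1 + 2 * u ^ 4 + u ^ 4 * u ^ 4 := by ring
      linarith
    have g5 : (1 + u ^ 4) ^ 2 * (1 + u ^ 8) ≤ (1 + 3 * u ^ 4) * (1 + u ^ 4) :=
      mul_le_mul g4 (by linarith) (by positivity) (by positivity)
    have g6 : (1 + 3 * u ^ 4) * (1 + u ^ 4) = 1 + 4 * u ^ 4 + 3 * (u ^ 4 * u ^ 4) := by ring
    linarith
  have f4 : X * (1 - u ^ 2) ≤ (1 + 2 * u ^ 2) * M := by
    have g1 := mul_le_mul_of_nonneg_right f2 hX
    have g2 := mul_le_mul_of_nonneg_right f3 (by linarith : (0 : ℝ) ≤ M)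
    have g3 : u ^ 2 ≤ u ^ 2 * M := le_mul_of_one_le_right (by positivity) hM1
    linarith
  have f5 : (1 + 2 * u ^ 2) * M ≤ ((1 + u) * M) * (1 - u ^ 2) := by
    have g1 : 1 + 2 * u ^ 2 ≤ (1 + u) * (1 - u ^ 2) := by
      have g3 : u * u ^ 2 ≤ 1 * u ^ 2 := mul_le_mul_of_nonneg_right (by linarith) hu2p.le
      have g4 : (1 + u) * (1 - u ^ 2) = 1 + u - u ^ 2 - u * u ^ 2 := by ring
      linarith
    have g2 := mul_le_mul_of_nonneg_right g1 (by linarith : (0 : ℝ) ≤ M)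
    linarith
  have f6 : 0 < 1 - u ^ 2 := by linarith
  exact le_of_mul_le_mul_right (f4.trans f5) f6

/-- **Numerical conclusion.** -/
theorem num_final {K : ℝ} (hK : 0 ≤ K) : ∀ᶠ n : ℕ in atTop, ∀ t : ℝ, 0 ≤ t →
    1 / zz0 n ^ 2 ≤ 1 - t → ∀ X R1 R4 Er : ℝ, 0 ≤ X → 0 ≤ R1 → 0 ≤ R4 → 0 ≤ Er →
    Er ≤ 1 / zz0 n ^ 80 → R1 ≤ 2 / zz0 n ^ 192 → n * R4 ≤ X / zz0 n ^ 392 + 1 / zz0 n ^ 240 →
    BigIneq K n (LL n t) t (qq n t) X R1 R4 Er (zz0 n ^ 8) →
    X ≤ (1 + 1 / zz0 n) * ((1 + t) / (1 - t) ^ 3) := by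
  filter_upwards [params, tendsto_zz0.eventually_ge_atTop (200000 * (1 + K))]
    with n hp hz2 t ht0 hτ X R1 R4 Er hX hR10 hR40 hEr0 hEr hR1 hR4 hbig
  obtain ⟨hz, hq1, hL, hqL, hρ, hpos, hT⟩ := hp t ht0 hτ
  obtain ⟨z, hzz⟩ : ∃ z, z = zz0 n := ⟨_, rfl⟩
  have hzn : z ^ 8000 = n := by rw [hzz]; exact zz0_pow n
  rw [← hzz] at hz hqL hρ hT hEr hR1 hR4 hbig hz2 hL hτ ⊢
  have hz0 : 0 < z := by linarith
  have hz1 : 1 ≤ z := by linarith
  obtain ⟨y, hy⟩ : ∃ y, y = z ^ 8 := ⟨_, rfl⟩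
  have p1000 : (n : ℝ) = y ^ 1000 := by rw [hy, ← pow_mul, ← hzn]
  have p10 : z ^ 80 = y ^ 10 := by rw [hy, ← pow_mul]
  have p24 : z ^ 192 = y ^ 24 := by rw [hy, ← pow_mul]
  have p49 : z ^ 392 = y ^ 49 := by rw [hy, ← pow_mul]
  have p30 : z ^ 240 = y ^ 30 := by rw [hy, ← pow_mul]
  rw [p10] at hEr
  rw [p24] at hR1
  rw [p49, p30] at hR4
  have hy4 : 4 ≤ y := by
    have h1 : (100 : ℝ) ^ 8 ≤ z ^ 8 := pow_le_pow_left₀ (by norm_num) hz 8
    rw [hy]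
    refine le_trans ?_ h1
    norm_num
  have hy0 : 0 < y := by linarith
  have e1 : 1 / y ≤ 1 - t := by
    refine le_trans ?_ hτ
    rw [hy]
    exact one_div_le_one_div_of_le (by positivity) (pow_le_pow_right₀ hz1 (by norm_num))
  have hLy : (LL n t : ℝ) + 1 ≤ y ^ 2 := by
    refine hL.trans ?_
    rw [hy, ← pow_mul]
    exact pow_le_pow_right₀ hz1 (by norm_num)
  have hs1 : 1 / z ^ 4 ≤ 1 := by
    rw [div_le_one (by positivity)]
    exact one_le_pow₀ hz1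
  rw [← hy] at hT hbig
  have h := big_alg (K := K) (y := y) (s := 1 / z ^ 4) (t := t) (q := qq n t) (X := X)
    (R1 := R1) (R4 := R4) (Er := Er) (n := n) (L := LL n t) hK p1000 hy4
    (by positivity) hs1 ht0 e1 hq1 hLy hqL hρ hT hEr0 hEr hR1 hR10 hR40 hX hR4 hbig
  obtain ⟨M, hM⟩ : ∃ M, M = (1 + t) / (1 - t) ^ 3 := ⟨_, rfl⟩
  have hτ0 : 0 < 1 - t := lt_of_lt_of_le (by positivity) hτ
  have hM1 : 1 ≤ M := by
    rw [hM, one_le_div (by positivity)]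
    have : (1 - t) ^ 3 ≤ 1 := pow_le_one₀ hτ0.le (by linarith)
    linarith
  rw [← hM] at h ⊢
  obtain ⟨u, hu⟩ : ∃ u, u = 1 / z := ⟨_, rfl⟩
  have hu0 : 0 < u := by rw [hu]; positivity
  have huK : (1 + K) * u ≤ 1 / 200000 := by
    rw [hu, mul_one_div, div_le_div_iff₀ hz0 (by norm_num)]
    linarith
  have e4 : 1 / z ^ 4 = u ^ 4 := by rw [hu, one_div_pow]
  have e8 : 1 / y = u ^ 8 := by rw [hy, hu, one_div_pow]
  have e8a : (4000 + 1000 * K) / y = (4000 + 1000 * K) * u ^ 8 := by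
    rw [← e8]; ring
  have e8b : 1000 * K / y * X = 1000 * K * u ^ 8 * X := by
    rw [← e8]; ring
  rw [e4, e8, e8a, e8b] at h
  rw [← hu]
  exact num_end hK hu0 huK hM1 hX h

end Vale.Agent.P146.R2
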