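import Vale.Agent.P146.R2.H597.Cor
import Vale.Agent.P146.R2.H749.Levels

/-!
# P146: the low Hermite levels of the free energy
-/

open MeasureTheory ProbabilityTheory Filter Topology

namespace Vale.Agent.P146.R2

open Vale.Agent.P146 Vale.Agent.P146.Ub.Cv Vale.Agent.P146.H605

/-- **The low Hermite levels carry little variance.** -/
theorem chaos_levels {β : ℝ} (hβ : 1 < β) {c₀ c : ℝ} (hc0 : 0 < c) (hc : c ≤ 1 / 8000)
    (hcc : 6 * c ≤ c₀)
    (hV : ∀ᶠ n : ℕ in atTop, (n : ℝ) ^ c₀ ≤ Var[freeEnergy n β; disorder n]) :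
    ∀ᶠ n : ℕ in atTop, ∀ m : ℕ, (m : ℝ) ≤ (n : ℝ) ^ c →
      levelVar n β m ≤ 16 * β ^ 2 * m ^ 2 ∧
      levelVar n β m ≤ (n : ℝ) ^ (-c) * Var[freeEnergy n β; disorder n] := by
  have hc4 : 2 * c ≤ 1 / 4000 := by linarith
  have hbig : ∀ᶠ n : ℕ in atTop, 16 * β ^ 2 ≤ (n : ℝ) ^ c :=
    ((tendsto_rpow_atTop (by positivity)).comp tendsto_natCast_atTop_atTop).eventually_ge_atTop _
  filter_upwards [main hβ, hV, eventually_ge_atTop 1, hbig] with n h hV hn hb m hm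
  have hn1 : (1 : ℝ) ≤ n := by exact_mod_cast hn
  have hn0 : (0 : ℝ) < n := by linarith
  obtain ⟨y, hy⟩ : ∃ y, y = (n : ℝ) ^ c := ⟨_, rfl⟩
  have hy1 : 1 ≤ y := by rw [hy]; exact Real.one_le_rpow hn1 hc0.le
  have hy0 : 0 < y := by linarith
  have hyi : (n : ℝ) ^ (-c) = 1 / y := by rw [hy, Real.rpow_neg hn0.le, one_div]
  have hy6 : y ^ 6 ≤ (n : ℝ) ^ c₀ := by
    rw [hy, ← Real.rpow_natCast, ← Real.rpow_mul hn0.le]
    refine Real.rpow_le_rpow_of_exponent_le hn1 ?_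
    push_cast
    linarith
  rw [← hy] at hm hb
  rw [hyi]
  obtain ⟨V, hVd⟩ : ∃ V, V = Var[freeEnergy n β; disorder n] := ⟨_, rfl⟩
  rw [← hVd] at hV ⊢
  have hV6 : y ^ 6 ≤ V := hy6.trans hV
  have hV0 : 0 < V := lt_of_lt_of_le (by positivity) hV6
  -- the first bound
  have key : levelVar n β m ≤ 16 * β ^ 2 * m ^ 2 := by
    rcases Nat.eq_zero_or_pos m with h0 | h0
    · subst h0
      have : levelVar n β 0 = 0 := by
        unfold levelVar
        refine Finset.sum_eq_zero fun α hα => ?_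
        have := (mem_levs n).1 hα
        omega
      rw [this]
      positivity
    · have hm1 : (1 : ℝ) ≤ m := by exact_mod_cast h0
      have hp : (0 : ℝ) < (m : ℝ) + 1 := by linarith
      have hzy : y ≤ zz0 n := by
        rw [hy]
        unfold zz0
        exact Real.rpow_le_rpow_of_exponent_le hn1 hc
      have hz16 : 16 ≤ zz0 n := by
        have hb2 : 1 ≤ β ^ 2 := one_le_pow₀ hβ.le
        linarith
      have hz0 : 0 < zz0 n := by linarith
      have ht0 : 0 ≤ 1 - 1 / ((m : ℝ) + 1) := by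
        rw [sub_nonneg, div_le_one hp]
        linarith
      have hτ : 1 / zz0 n ^ 2 ≤ 1 - (1 - 1 / ((m : ℝ) + 1)) := by
        rw [sub_sub_cancel]
        refine one_div_le_one_div_of_le hp ?_
        nlinarith
      obtain ⟨-, h2⟩ := h _ ht0 hτ
      rw [sub_sub_cancel] at h2
      refine (levelVar_le_of n β m h0 h2).trans ?_
      have e1 : (1 + 1 / zz0 n) * (1 - 1 / ((m : ℝ) + 1)) ≤ 2 * 1 := by
        refine mul_le_mul ?_ ?_ ht0 (by norm_num)
        · have : 1 / zz0 n ≤ 1 := by rw [div_le_one hz0]; linarith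
          linarith
        · have : 0 < 1 / ((m : ℝ) + 1) := by positivity
          linarith
      have e2 : (1 + 1 / zz0 n) * (1 - 1 / ((m : ℝ) + 1)) / (1 / ((m : ℝ) + 1)) ^ 2 ≤
          2 * (m + 1) ^ 2 := by
        rw [one_div_pow, div_div_eq_mul_div, div_one]
        exact mul_le_mul_of_nonneg_right (by linarith) (by positivity)
      have e3 : ((m : ℝ) + 1) ^ 2 ≤ 4 * m ^ 2 := by nlinarith
      have e4 : β ^ 2 / 2 * ((1 + 1 / zz0 n) * (1 - 1 / ((m : ℝ) + 1)) /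
          (1 / ((m : ℝ) + 1)) ^ 2 - (1 - 1 / ((m : ℝ) + 1))) ≤ β ^ 2 / 2 * (8 * m ^ 2) :=
        mul_le_mul_of_nonneg_left (by linarith) (by positivity)
      linarith
  refine ⟨key, key.trans ?_⟩
  have hm0 : (0 : ℝ) ≤ m := Nat.cast_nonneg m
  have e1 : (m : ℝ) ^ 2 ≤ y ^ 2 := pow_le_pow_left₀ hm0 hm 2
  have e2 : 16 * β ^ 2 * (m : ℝ) ^ 2 ≤ y * y ^ 2 :=
    mul_le_mul hb e1 (by positivity) hy0.le
  have e3 : y * y ^ 2 ≤ 1 / y * y ^ 6 := by
    have : 1 / y * y ^ 6 = y ^ 5 := by field_simp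
    rw [this]
    calc y * y ^ 2 = y ^ 3 := by ring
      _ ≤ y ^ 5 := pow_le_pow_right₀ hy1 (by norm_num)
  have e4 : 1 / y * y ^ 6 ≤ 1 / y * V := mul_le_mul_of_nonneg_left hV6 (by positivity)
  linarith

end Vale.Agent.P146.R2
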