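import Vale.Agent.P146.R2.H597.TailDef
import Vale.Agent.P146.H501.M5

/-!
# P146: the probability of a large overlap
-/

open MeasureTheory ProbabilityTheory Filter Topology

namespace Vale.Agent.P146.R2

open Vale.Agent.P146.H605 Vale.Agent.P146.H501

lemma overlapTail_eq (n : ℕ) (β δ t : ℝ) : overlapTail n β δ t = gm n β (big n δ) t := by
  unfold overlapTail gm
  have h : ∀ σ τ : Fin n → ℤˣ, (if δ ≤ overlap n σ τ ^ 2 then (1 : ℝ) else 0) = big n δ σ τ := by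
    intro σ τ
    unfold big
    by_cases hc : δ ≤ overlap n σ τ ^ 2
    · simp only [if_pos hc]
    · simp only [if_neg hc]
  simp_rw [h]

theorem tail_ev {β : ℝ} (hβ : 1 < β) : ∀ᶠ n : ℕ in atTop, ∀ t δ : ℝ, 0 ≤ t → t ≤ 1 →
    (n : ℝ) ^ (-(1 / 20) : ℝ) ≤ (1 - t) * δ →
      overlapTail n β δ t ≤ Real.exp (-(n : ℝ) ^ (4 / 5 : ℝ)) := by
  obtain ⟨N, hN⟩ := overlap_tail hβ
  filter_upwards [eventually_ge_atTop N] with n hn t δ h0 h1 h2
  rw [overlapTail_eq]
  exact hN n hn t δ h0 h1 h2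

end Vale.Agent.P146.R2
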