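import Vale.Agent.P146.H605.Defs

/-!
# P146: the probability of a large overlap
-/

open MeasureTheory ProbabilityTheory

namespace Vale.Agent.P146.R2

open Vale.Agent.P146.H605

/-- The probability `E ⟨1(R(σ,τ)² ≥ δ)⟩` of a large overlap, where `σ` and `τ` are drawn
independently from the Gibbs measures of the two disorders `√t z + √(1-t) g` and
`√t z + √(1-t) g'`, with `z`, `g`, `g'` independent standard Gaussian. -/
noncomputable def overlapTail (n : ℕ) (β δ t : ℝ) : ℝ :=
  ∫ z, ∫ g, ∫ g', ∑ σ : Fin n → ℤˣ, ∑ τ : Fin n → ℤˣ,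
    (if δ ≤ overlap n σ τ ^ 2 then 1 else 0) * gibbs n β (mixed n t z g) σ *
      gibbs n β (mixed n t z g') τ ∂(disorder n) ∂(disorder n) ∂(disorder n)

end Vale.Agent.P146.R2
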