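import Vale.Agent.P146.R2.H597.Par
import Vale.Agent.P146.R2.H749.Cov
import Vale.Agent.P146.H501.M5

/-!
# P146: assembly of the theorem on the chaos of optimal order
-/

open Finset Filter Topology

namespace Vale.Agent.P146.R2

open Vale.Agent.P146 Vale.Agent.P146.H605 Vale.Agent.P146.H501 Vale.Agent.P146.Ub.Cv

lemma crossOverlap_mono (n : ℕ) (β : ℝ) (hn : 1 ≤ n) (hβ : β ≠ 0) {s t : ℝ} (h0 : 0 ≤ s)
    (hst : s ≤ t) (h1 : t ≤ 1) : n * crossOverlap n β s ≤ n * crossOverlap n β t := by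
  have h := prof_mono n β hn h0 hst h1
  unfold prof at h
  have h2 : 0 < β ^ 2 / 2 := by positivity
  have h3 := le_of_mul_le_mul_left h h2
  linarith

lemma zz0_pos {n : ℕ} (hn : 1 ≤ n) : 0 < zz0 n := by
  unfold zz0
  have : (0 : ℝ) < n := by exact_mod_cast hn
  positivity

/-- from the finite inequality to the bounds -/
theorem main_of {β K : ℝ} (hβ : 1 < β) (hK : 0 ≤ K)
    (hfin : ∀ᶠ n : ℕ in atTop, ∀ t : ℝ, 0 < t → 1 / zz0 n ^ 2 ≤ 1 - t → ∃ Er : ℝ, 0 ≤ Er ∧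
      Er ≤ 1 / zz0 n ^ 80 ∧
      BigIneq K n (LL n t) t (qq n t) (n * crossOverlap n β t) (crossMom n β 1 t)
        (crossMom n β 4 t) Er (zz0 n ^ 8))
    (h5 : ∀ᶠ n : ℕ in atTop, ∀ t : ℝ, 0 ≤ t → 1 / zz0 n ^ 2 ≤ 1 - t →
      crossMom n β 1 t ≤ 2 / zz0 n ^ 192 ∧
      n * crossMom n β 4 t ≤ (n * crossOverlap n β t) / zz0 n ^ 392 + 1 / zz0 n ^ 240)
    (hpos : ∀ (n : ℕ) (j : ℕ) (t : ℝ), 0 ≤ crossMom n β j t) :
    ∀ᶠ n : ℕ in atTop, ∀ t : ℝ, 0 ≤ t → 1 / zz0 n ^ 2 ≤ 1 - t →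
      n * crossOverlap n β t ≤ (1 + 1 / zz0 n) * ((1 + t) / (1 - t) ^ 3) ∧
      crossCov n β t ≤ β ^ 2 / 2 * ((1 + 1 / zz0 n) * t / (1 - t) ^ 2 - t) := by
  have hβ0 : β ≠ 0 := by positivity
  filter_upwards [hfin, h5, num_final hK, eventually_ge_atTop 1,
    tendsto_zz0.eventually_ge_atTop 2] with n hf h5 hnum hn hz2
  have hz : 0 < zz0 n := zz0_pos hn
  -- positive correlations
  have main : ∀ t : ℝ, 0 < t → 1 / zz0 n ^ 2 ≤ 1 - t →
      n * crossOverlap n β t ≤ (1 + 1 / zz0 n) * ((1 + t) / (1 - t) ^ 3) := by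
    intro t ht hτ
    obtain ⟨Er, hE0, hE1, hbig⟩ := hf t ht hτ
    obtain ⟨hR1, hR4⟩ := h5 t ht.le hτ
    refine hnum t ht.le hτ _ _ _ _ ?_ (hpos _ _ _) (hpos _ _ _) hE0 hE1 hR1 hR4 hbig
    rw [← crossMom_two]
    exact mul_nonneg (Nat.cast_nonneg n) (hpos _ _ _)
  have main2 : ∀ t : ℝ, 0 ≤ t → 1 / zz0 n ^ 2 ≤ 1 - t →
      n * crossOverlap n β t ≤ (1 + 1 / zz0 n) * ((1 + t) / (1 - t) ^ 3) := by
    intro t ht hτ
    rcases ht.lt_or_eq with h | h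
    · exact main t h hτ
    · subst h
      have hz4 : 1 / zz0 n ^ 2 ≤ 1 / 4 := by
        refine one_div_le_one_div_of_le (by norm_num) ?_
        nlinarith
      have hc : Tendsto (fun s : ℝ => (1 + 1 / zz0 n) * ((1 + s) / (1 - s) ^ 3)) (𝓝[>] 0)
          (𝓝 ((1 + 1 / zz0 n) * ((1 + 0) / (1 - 0) ^ 3))) := by
        have : ContinuousAt (fun s : ℝ => (1 + 1 / zz0 n) * ((1 + s) / (1 - s) ^ 3)) 0 := by
          refine ContinuousAt.mul continuousAt_const (ContinuousAt.div (by fun_prop)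
            (by fun_prop) (by norm_num))
        exact this.tendsto.mono_left nhdsWithin_le_nhds
      refine ge_of_tendsto hc ?_
      have hs : ∀ᶠ s : ℝ in 𝓝[>] 0, s < 1 / 2 :=
        nhdsWithin_le_nhds (Iio_mem_nhds (by norm_num))
      filter_upwards [hs, self_mem_nhdsWithin] with s hs1 hs0
      have hs0' : 0 < s := hs0
      exact (crossOverlap_mono n β hn hβ0 le_rfl hs0'.le (by linarith)).trans
        (main s hs0' (by linarith))
  intro t ht hτ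
  refine ⟨main2 t ht hτ, ?_⟩
  have ht1 : t < 1 := by
    have : 0 < 1 / zz0 n ^ 2 := by positivity
    linarith
  refine H749.crossCov_le n β hn ht ht1 fun s hs hst => ?_
  rw [mul_div_assoc]
  exact main2 s hs (by linarith)

end Vale.Agent.P146.R2
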