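import Vale.Agent.P146.R2.H597.Main
import Vale.Agent.P146.H605.Indep
import Vale.Agent.Results.P146.SharpRate

/-!
# P146: consequences of the chaos of optimal order
-/

open MeasureTheory ProbabilityTheory Filter Topology

namespace Vale.Agent.P146.R2

open Vale.Agent.P146 Vale.Agent.P146.Ub.Cv Vale.Agent.P146.H605

/-- the bounds with powers of `n` -/
theorem chaos_pow {β : ℝ} (hβ : 1 < β) {c : ℝ} (hc0 : 0 < c) (hc : c ≤ 1 / 8000) :
    ∀ᶠ n : ℕ in atTop, ∀ t : ℝ, 0 ≤ t → (n : ℝ) ^ (-c) ≤ 1 - t →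
      n * crossOverlap n β t ≤ (1 + (n : ℝ) ^ (-c)) * ((1 + t) / (1 - t) ^ 3) ∧
      crossCov n β t ≤ β ^ 2 / 2 * ((1 + (n : ℝ) ^ (-c)) * t / (1 - t) ^ 2 - t) := by
  filter_upwards [main hβ, eventually_ge_atTop 1] with n h hn t ht hτ
  have hn1 : (1 : ℝ) ≤ n := by exact_mod_cast hn
  have hn0 : (0 : ℝ) < n := by linarith
  have h1 : 1 / zz0 n = (n : ℝ) ^ (-(1 / 8000) : ℝ) := by
    unfold zz0
    rw [Real.rpow_neg hn0.le, one_div]
  have h2 : 1 / zz0 n ≤ (n : ℝ) ^ (-c) := by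
    rw [h1]
    exact Real.rpow_le_rpow_of_exponent_le hn1 (by linarith)
  have hz1 : 1 ≤ zz0 n := by
    unfold zz0
    exact Real.one_le_rpow hn1 (by norm_num)
  have h3 : 1 / zz0 n ^ 2 ≤ 1 - t := by
    refine le_trans ?_ hτ
    refine le_trans ?_ h2
    refine one_div_le_one_div_of_le (by linarith) ?_
    nlinarith
  obtain ⟨a, b⟩ := h t ht h3
  have hτ0 : 0 < 1 - t := lt_of_lt_of_le (by positivity) hτ
  refine ⟨a.trans ?_, b.trans ?_⟩
  · have h4 : 0 ≤ (1 + t) / (1 - t) ^ 3 := by positivity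
    exact mul_le_mul_of_nonneg_right (by linarith) h4
  · refine mul_le_mul_of_nonneg_left ?_ (by positivity)
    have h4 : (1 + 1 / zz0 n) * t / (1 - t) ^ 2 ≤ (1 + (n : ℝ) ^ (-c)) * t / (1 - t) ^ 2 := by
      refine div_le_div_of_nonneg_right ?_ (by positivity)
      exact mul_le_mul_of_nonneg_right (by linarith) ht
    linarith

/-- **Noise sensitivity at polynomially small noise.** -/
theorem chaos_indep {β : ℝ} (hβ : 1 < β) {c₀ c : ℝ} (hc0 : 0 < c) (hc : c ≤ 1 / 8000)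
    (hcc : 4 * c ≤ c₀)
    (hV : ∀ᶠ n : ℕ in atTop, (n : ℝ) ^ c₀ ≤ Var[freeEnergy n β; disorder n]) :
    ∀ᶠ n : ℕ in atTop, ∀ t : ℝ, 0 ≤ t → (n : ℝ) ^ (-c) ≤ 1 - t →
      crossCov n β t ≤ (n : ℝ) ^ (-c) * Var[freeEnergy n β; disorder n] ∧
      ∀ f h : ℝ → ℝ, LipschitzWith 1 f → LipschitzWith 1 h →
        |(∫ z, ∫ g, ∫ g', f (freeEnergy n β (mixed n t z g) /
              Real.sqrt (Var[freeEnergy n β; disorder n])) *
            h (freeEnergy n β (mixed n t z g') / Real.sqrt (Var[freeEnergy n β; disorder n]))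
              ∂(disorder n) ∂(disorder n) ∂(disorder n)) -
          (∫ g, f (freeEnergy n β g / Real.sqrt (Var[freeEnergy n β; disorder n]))
              ∂(disorder n)) *
            ∫ g, h (freeEnergy n β g / Real.sqrt (Var[freeEnergy n β; disorder n]))
              ∂(disorder n)| ≤ (n : ℝ) ^ (-c) := by
  have hbig : ∀ᶠ n : ℕ in atTop, 2 * β ^ 2 ≤ (n : ℝ) ^ c :=
    ((tendsto_rpow_atTop (by positivity)).comp tendsto_natCast_atTop_atTop).eventually_ge_atTop _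
  filter_upwards [chaos_pow hβ hc0 hc, hV, eventually_ge_atTop 1, hbig] with n h hV hn hb t ht hτ
  have hn1 : (1 : ℝ) ≤ n := by exact_mod_cast hn
  have hn0 : (0 : ℝ) < n := by linarith
  obtain ⟨y, hy⟩ : ∃ y, y = (n : ℝ) ^ c := ⟨_, rfl⟩
  have hy1 : 1 ≤ y := by rw [hy]; exact Real.one_le_rpow hn1 hc0.le
  have hy0 : 0 < y := by linarith
  have hyi : (n : ℝ) ^ (-c) = 1 / y := by rw [hy, Real.rpow_neg hn0.le, one_div]
  have hy4 : y ^ 4 ≤ (n : ℝ) ^ c₀ := by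
    rw [hy, ← Real.rpow_natCast, ← Real.rpow_mul hn0.le]
    refine Real.rpow_le_rpow_of_exponent_le hn1 ?_
    push_cast
    linarith
  obtain ⟨V, hVd⟩ : ∃ V, V = Var[freeEnergy n β; disorder n] := ⟨_, rfl⟩
  obtain ⟨-, h2⟩ := h t ht hτ
  rw [← hVd] at hV ⊢
  rw [hyi] at hτ h2 ⊢
  rw [← hy] at hb
  have hV4 : y ^ 4 ≤ V := hy4.trans hV
  have hV0 : 0 < V := lt_of_lt_of_le (by positivity) hV4
  have hτ0 : 0 < 1 - t := lt_of_lt_of_le (by positivity) hτ
  have ht1 : t ≤ 1 := by linarith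
  have hK : crossCov n β t ≤ β ^ 2 * y ^ 2 - β ^ 2 / 2 * t := by
    have e1 : (1 + 1 / y) * t / (1 - t) ^ 2 ≤ 2 * y ^ 2 := by
      rw [div_le_iff₀ (by positivity)]
      have e2 : 1 ≤ y * (1 - t) := by
        have := mul_le_mul_of_nonneg_left hτ hy0.le
        rwa [mul_one_div_cancel hy0.ne'] at this
      have e3 : 1 ≤ (y * (1 - t)) ^ 2 := one_le_pow₀ e2
      have e4 : 1 / y ≤ 1 := by rw [div_le_one hy0]; exact hy1
      have e5 : (1 + 1 / y) * t ≤ 2 * 1 :=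
        mul_le_mul (by linarith) ht1 ht (by norm_num)
      nlinarith
    have e6 := mul_le_mul_of_nonneg_left e1 (by positivity : 0 ≤ β ^ 2 / 2)
    linarith
  have hK2 : crossCov n β t + β ^ 2 * t ≤ 2 * β ^ 2 * y ^ 2 := by
    have e1 : β ^ 2 * t ≤ β ^ 2 * 1 := mul_le_mul_of_nonneg_left ht1 (by positivity)
    have e2 : β ^ 2 * 1 ≤ β ^ 2 * y ^ 2 :=
      mul_le_mul_of_nonneg_left (one_le_pow₀ hy1) (by positivity)
    have e3 : 0 ≤ β ^ 2 / 2 * t := by positivity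
    linarith
  have hK3 : 2 * β ^ 2 * y ^ 2 ≤ 1 / y * V := by
    have e1 : 2 * β ^ 2 * y ^ 2 ≤ y * y ^ 2 := mul_le_mul_of_nonneg_right hb (by positivity)
    have e2 : 1 / y * y ^ 4 ≤ 1 / y * V := mul_le_mul_of_nonneg_left hV4 (by positivity)
    have e3 : 1 / y * y ^ 4 = y * y ^ 2 := by field_simp
    linarith
  refine ⟨?_, fun f g hf hg => ?_⟩
  · have e3 : 0 ≤ β ^ 2 * t := by positivity
    linarith
  · have h5 := lip_cov_scaled n β hn hf hg ht ht1 (Real.sqrt_pos.2 hV0)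
    refine h5.trans ?_
    rw [Real.sq_sqrt hV0.le, div_le_iff₀ hV0]
    exact hK2.trans hK3

end Vale.Agent.P146.R2
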