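import Vale.Agent.P146.R2.Def

/-!
# P146: numerical part of the assembly
-/

open Finset Filter

namespace Vale.Agent.P146.R2

open Vale.Agent.P146.H453

/-- `∑_{k ≤ L} (k+1)² t^k`, exactly -/
lemma sum_sq_geom (t : ℝ) (L : ℕ) :
    (∑ k ∈ range (L + 1), t ^ k * ((k : ℝ) + 1) ^ 2) * (1 - t) ^ 3 =
      1 + t - t ^ (L + 1) * (2 + (2 * L + 1) * (1 - t) + ((L : ℝ) + 1) ^ 2 * (1 - t) ^ 2) := by
  induction L with
  | zero => simp; ring
  | succ L ih =>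
    rw [sum_range_succ, add_mul, ih]
    push_cast
    ring

lemma sum_sq_geom_le {t : ℝ} (h0 : 0 ≤ t) (h1 : t < 1) (L : ℕ) :
    ∑ k ∈ range (L + 1), t ^ k * ((k : ℝ) + 1) ^ 2 ≤ (1 + t) / (1 - t) ^ 3 := by
  have h2 : 0 < 1 - t := by linarith
  rw [le_div_iff₀ (by positivity), sum_sq_geom]
  have : 0 ≤ t ^ (L + 1) * (2 + (2 * L + 1) * (1 - t) + ((L : ℝ) + 1) ^ 2 * (1 - t) ^ 2) := by
    positivity
  linarith

/-- the bound of the size of the error terms -/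
noncomputable def er0 (n L : ℕ) : ℝ := Real.sqrt (L / n) + L * eta n L

lemma er0_nonneg (n L : ℕ) : 0 ≤ er0 n L := by
  unfold er0 eta; positivity

lemma er0_sq_le {n L : ℕ} (hn : 0 < n) (hL : L + 1 ≤ n) :
    er0 n L ^ 2 ≤ 100 * ((L : ℝ) + 1) ^ 4 / n := by
  have hn0 : (0 : ℝ) < n := by exact_mod_cast hn
  have hs : 0 < Real.sqrt n := Real.sqrt_pos.2 hn0
  have hs2 : Real.sqrt n ^ 2 = n := Real.sq_sqrt hn0.le
  have hL' : (L : ℝ) + 1 ≤ n := by exact_mod_cast hL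
  obtain ⟨l, hl⟩ : ∃ l : ℝ, l = (L : ℝ) + 1 := ⟨_, rfl⟩
  have hl1 : 1 ≤ l := by rw [hl]; linarith [(Nat.cast_nonneg L : (0 : ℝ) ≤ L)]
  have hLl : (L : ℝ) = l - 1 := by rw [hl]; ring
  have e1 : Real.sqrt (L / n) ≤ l / Real.sqrt n := by
    rw [Real.sqrt_div' _ hn0.le]
    refine div_le_div_of_nonneg_right ?_ hs.le
    rw [Real.sqrt_le_left (by linarith), hLl]
    nlinarith
  have e2 : Real.sqrt ((2 * L + 5) * (L + 1) / n) ≤ 3 * l / Real.sqrt n := by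
    rw [Real.sqrt_div' _ hn0.le]
    refine div_le_div_of_nonneg_right ?_ hs.le
    rw [Real.sqrt_le_left (by linarith), hLl]
    nlinarith
  have e3 : (2 * L + 6 : ℝ) / n ≤ 6 * l / Real.sqrt n := by
    have h1 : (2 * L + 6 : ℝ) ≤ 6 * l := by rw [hLl]; linarith
    have h2 : Real.sqrt n ≤ n := by
      have h3 : (1 : ℝ) ≤ n := by exact_mod_cast hn
      rw [Real.sqrt_le_left hn0.le]
      nlinarith
    exact div_le_div₀ (by positivity) h1 hs h2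
  have e4 : eta n L ≤ 9 * l / Real.sqrt n := by
    unfold eta
    refine (add_le_add e2 e3).trans_eq ?_
    ring
  have e5 : er0 n L ≤ 10 * l ^ 2 / Real.sqrt n := by
    unfold er0
    have h1 : (L : ℝ) * eta n L ≤ l * (9 * l / Real.sqrt n) := by
      refine mul_le_mul (by rw [hLl]; linarith) e4 ?_ (by linarith)
      unfold eta; positivity
    have h2 : l / Real.sqrt n ≤ l ^ 2 / Real.sqrt n := by
      refine div_le_div_of_nonneg_right ?_ hs.le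
      nlinarith
    calc Real.sqrt (L / n) + L * eta n L ≤ l ^ 2 / Real.sqrt n + l * (9 * l / Real.sqrt n) := by
          linarith
      _ = 10 * l ^ 2 / Real.sqrt n := by ring
  calc er0 n L ^ 2 ≤ (10 * l ^ 2 / Real.sqrt n) ^ 2 := pow_le_pow_left₀ (er0_nonneg n L) e5 2
    _ = 100 * l ^ 4 / n := by rw [div_pow, hs2]; ring
    _ = _ := by rw [hl]

/-- the finite size inequality which the assembly provides -/
def BigIneq (K : ℝ) (n L : ℕ) (t q X R1 R4 Er y : ℝ) : Prop :=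
  X ≤ n * t ^ (L + 1) + ∑ k ∈ range (L + 1), ((n : ℝ) / (n - (2 * L + 2))) ^ k *
    ((1 + 1 / y) * (t ^ k * (((k + 1) * q ^ k) ^ 2 + Er)) +
      (1 + y) * (er0 n L ^ 2 * ((L + 1) * (n * ((L + 1) * q ^ L) ^ 2 * R1 + Er))) +
      1 / 3 * (t ^ k * (K * (((k + 1) * q ^ k) ^ 2 * (n * R4)) + Er)) +
      1 / 3 * (er0 n L ^ 2 * ((L + 1) * (K * (n * ((L + 1) * q ^ L) ^ 2 * (n * R4)) + Er))))

lemma big_sum (s y t Er K r l D1 D2 : ℝ) (L : ℕ) (hl : l = (L : ℝ) + 1) :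
    ∑ k ∈ range (L + 1),
    (1 + s) * ((1 + 1 / y) * (t ^ k * ((k + 1) ^ 2 * (1 + s) + Er)) + D1 +
      1 / 3 * (t ^ k * (K * ((k + 1) ^ 2 * (1 + s) * r) + Er)) + D2) =
    (1 + s) * ((1 + 1 / y) * (1 + s) + 1 / 3 * (K * (1 + s) * r)) *
        (∑ k ∈ range (L + 1), t ^ k * ((k : ℝ) + 1) ^ 2) +
      (1 + s) * ((1 + 1 / y) + 1 / 3) * Er * (∑ k ∈ range (L + 1), t ^ k) +
      l * ((1 + s) * (D1 + D2)) := by
  have hc : l * ((1 + s) * (D1 + D2)) = ∑ k ∈ range (L + 1), ((1 + s) * (D1 + D2)) := by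
    rw [sum_const, card_range, nsmul_eq_mul, hl]
    push_cast
    ring
  rw [hc, mul_sum, mul_sum, ← sum_add_distrib, ← sum_add_distrib]
  exact sum_congr rfl fun k _ => by ring

lemma big_main {s y K r M S : ℝ} (hK : 0 ≤ K) (hy : 1 ≤ y) (hs0 : 0 ≤ s) (hs1 : s ≤ 1)
    (hr : 0 ≤ r) (hM0 : 0 ≤ M) (hM : M ≤ 2 * y ^ 3) (hS : S ≤ M) :
    (1 + s) * ((1 + 1 / y) * (1 + s) + 1 / 3 * (K * (1 + s) * r)) * S ≤
      (1 + s) ^ 2 * (1 + 1 / y) * M + 4 / 3 * (K * r) * (2 * y ^ 3) := by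
  have hy0 : 0 < y := by linarith
  have c1 : (1 + s) * ((1 + 1 / y) * (1 + s) + 1 / 3 * (K * (1 + s) * r)) * S ≤
      (1 + s) * ((1 + 1 / y) * (1 + s) + 1 / 3 * (K * (1 + s) * r)) * M :=
    mul_le_mul_of_nonneg_left hS (by positivity)
  have c2 : (1 + s) * ((1 + 1 / y) * (1 + s) + 1 / 3 * (K * (1 + s) * r)) * M =
      (1 + s) ^ 2 * (1 + 1 / y) * M + 1 / 3 * (1 + s) ^ 2 * (K * r) * M := by ring
  have c3 : 1 / 3 * (1 + s) ^ 2 * (K * r) * M ≤ 4 / 3 * (K * r) * (2 * y ^ 3) := by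
    have h4 : (1 + s) ^ 2 ≤ 4 := by nlinarith
    have h5 : 0 ≤ K * r := by positivity
    have d1 : 1 / 3 * (1 + s) ^ 2 * (K * r) ≤ 4 / 3 * (K * r) :=
      mul_le_mul_of_nonneg_right (by linarith) h5
    exact mul_le_mul d1 hM hM0 (by positivity)
  linarith

lemma big_small {s y Er T : ℝ} (hy : 1 ≤ y) (hs0 : 0 ≤ s) (hs1 : s ≤ 1) (hEr0 : 0 ≤ Er)
    (hEr : Er ≤ 1 / y ^ 10) (hT0 : 0 ≤ T) (hT : T ≤ y ^ 2) :
    (1 + s) * ((1 + 1 / y) + 1 / 3) * Er * T ≤ 6 / y := by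
  have hy0 : 0 < y := by linarith
  have c1 : (1 + s) * ((1 + 1 / y) + 1 / 3) ≤ 6 := by
    have h1 : 1 / y ≤ 1 := by rw [div_le_one hy0]; exact hy
    have h2 : (1 + 1 / y) + 1 / 3 ≤ 3 := by linarith
    calc (1 + s) * ((1 + 1 / y) + 1 / 3) ≤ 2 * 3 :=
          mul_le_mul (by linarith) h2 (by positivity) (by norm_num)
      _ = 6 := by norm_num
  have c3 : Er * T ≤ 1 / y := by
    calc Er * T ≤ 1 / y ^ 10 * y ^ 2 := mul_le_mul hEr hT hT0 (by positivity)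
      _ = 1 / y ^ 8 := by field_simp
      _ ≤ 1 / y := one_div_le_one_div_of_le hy0 (le_self_pow₀ hy (by norm_num))
  calc (1 + s) * ((1 + 1 / y) + 1 / 3) * Er * T =
        (1 + s) * ((1 + 1 / y) + 1 / 3) * (Er * T) := by ring
    _ ≤ 6 * (1 / y) := mul_le_mul c1 c3 (by positivity) (by norm_num)
    _ = 6 / y := by ring

lemma big_err {K y s R1 Er r e2 l n : ℝ} (hK : 0 ≤ K) (hn : n = y ^ 1000) (hy : 4 ≤ y)
    (hs0 : 0 ≤ s) (hs1 : s ≤ 1) (hl1 : 1 ≤ l) (hL : l ≤ y ^ 2) (hr0 : 0 ≤ r)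
    (hEr0 : 0 ≤ Er) (hEr : Er ≤ 1 / y ^ 10) (hR1 : R1 ≤ 2 / y ^ 24) (hR10 : 0 ≤ R1)
    (he20 : 0 ≤ e2) (he : e2 ≤ 100 * l ^ 4 / n) :
    l * ((1 + s) * ((1 + y) * (e2 * (l * (n * (l ^ 2 * (1 + s)) * R1 + Er))) +
      1 / 3 * (e2 * (l * (K * (n * (l ^ 2 * (1 + s)) * r) + Er))))) ≤
      1700 / y + 400 * K * y ^ 16 * r := by
  have hy0 : 0 < y := by linarith
  have hy1 : 1 ≤ y := by linarith
  have hn0' : 0 < n := by rw [hn]; positivity
  have hep : e2 * n ≤ 100 * l ^ 4 := by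
    have := mul_le_mul_of_nonneg_right he hn0'.le
    rwa [div_mul_cancel₀ _ hn0'.ne'] at this
  have hlp : ∀ j : ℕ, l ^ j ≤ y ^ (2 * j) := by
    intro j
    rw [pow_mul]
    exact pow_le_pow_left₀ (by linarith) hL j
  have heN : e2 ≤ 100 * y ^ 8 / n := by
    rw [le_div_iff₀ hn0']
    exact hep.trans (mul_le_mul_of_nonneg_left (hlp 4) (by norm_num))
  have hs2 : 1 + s ≤ 2 := by linarith
  have hy2 : 1 + y ≤ 2 * y := by linarith
  have c1 : l * ((1 + s) * ((1 + y) * (e2 * (l * (n * (l ^ 2 * (1 + s)) * R1 + Er))) +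
      1 / 3 * (e2 * (l * (K * (n * (l ^ 2 * (1 + s)) * r) + Er))))) ≤
      l * (2 * ((2 * y) * (e2 * (l * (n * (l ^ 2 * 2) * R1 + Er))) +
      1 / 3 * (e2 * (l * (K * (n * (l ^ 2 * 2) * r) + Er))))) := by
    gcongr
  have c2 : l * (2 * ((2 * y) * (e2 * (l * (n * (l ^ 2 * 2) * R1 + Er))) +
      1 / 3 * (e2 * (l * (K * (n * (l ^ 2 * 2) * r) + Er))))) =
      8 * y * (e2 * n) * l ^ 4 * R1 + (4 * y + 2 / 3) * (l ^ 2 * e2 * Er) +
        4 / 3 * K * (e2 * n) * l ^ 4 * r := by ring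
  have d0 : (e2 * n) * l ^ 4 ≤ 100 * y ^ 16 := by
    calc (e2 * n) * l ^ 4 ≤ (100 * l ^ 4) * l ^ 4 :=
          mul_le_mul_of_nonneg_right hep (by positivity)
      _ = 100 * l ^ 8 := by ring
      _ ≤ 100 * y ^ 16 := mul_le_mul_of_nonneg_left (hlp 8) (by norm_num)
  have c3 : 8 * y * (e2 * n) * l ^ 4 * R1 ≤ 1600 / y := by
    calc 8 * y * (e2 * n) * l ^ 4 * R1 = 8 * y * ((e2 * n) * l ^ 4) * R1 := by ring
      _ ≤ 8 * y * (100 * y ^ 16) * (2 / y ^ 24) := by gcongr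
      _ = 1600 / y ^ 7 := by field_simp; ring
      _ ≤ 1600 / y := div_le_div_of_nonneg_left (by norm_num) hy0
          (le_self_pow₀ hy1 (by norm_num))
  have hyn : y ^ 20 ≤ n := by rw [hn]; exact pow_le_pow_right₀ hy1 (by norm_num)
  have c5 : l ^ 2 * e2 * Er ≤ 4 / y ^ 3 := by
    have d1 : e2 ≤ 100 * y ^ 8 / y ^ 20 := heN.trans
      (div_le_div_of_nonneg_left (by positivity) (by positivity) hyn)
    have d2 : l ^ 2 ≤ y ^ 4 := hlp 2
    calc l ^ 2 * e2 * Er ≤ y ^ 4 * (100 * y ^ 8 / y ^ 20) * (1 / y ^ 10) := by gcongr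
      _ = 100 / y ^ 18 := by field_simp
      _ ≤ 4 / y ^ 3 := by
          rw [div_le_div_iff₀ (by positivity) (by positivity)]
          have h3 : (4 : ℝ) ^ 15 ≤ y ^ 15 := pow_le_pow_left₀ (by norm_num) hy 15
          have h4 : (25 : ℝ) ≤ y ^ 15 := le_trans (by norm_num) h3
          have h5 : y ^ 18 = y ^ 3 * y ^ 15 := by ring
          rw [h5]
          have h6 := mul_le_mul_of_nonneg_left h4 (pow_pos hy0 3).le
          linarith
  have c6 : (4 * y + 2 / 3) * (l ^ 2 * e2 * Er) ≤ 100 / y := by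
    calc (4 * y + 2 / 3) * (l ^ 2 * e2 * Er) ≤ (5 * y) * (4 / y ^ 3) := by
          refine mul_le_mul (by linarith) c5 (by positivity) (by positivity)
      _ = 20 / y ^ 2 := by field_simp; ring
      _ ≤ 20 / y := div_le_div_of_nonneg_left (by norm_num) hy0
          (le_self_pow₀ hy1 (by norm_num))
      _ ≤ 100 / y := div_le_div_of_nonneg_right (by norm_num) hy0.le
  have c7 : 4 / 3 * K * (e2 * n) * l ^ 4 * r ≤ 400 * K * y ^ 16 * r := by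
    calc 4 / 3 * K * (e2 * n) * l ^ 4 * r = 4 / 3 * K * ((e2 * n) * l ^ 4) * r := by ring
      _ ≤ 4 / 3 * K * (100 * y ^ 16) * r := by gcongr
      _ = (400 / 3) * (K * y ^ 16 * r) := by ring
      _ ≤ 400 * (K * y ^ 16 * r) := mul_le_mul_of_nonneg_right (by norm_num) (by positivity)
      _ = _ := by ring
  rw [c2] at c1
  have c8 : (1700 : ℝ) / y = 1600 / y + 100 / y := by ring
  linarith

lemma big_r {K y X r : ℝ} (hK : 0 ≤ K) (hy : 1 ≤ y) (hX : 0 ≤ X) (hr0 : 0 ≤ r)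
    (hr : r ≤ X / y ^ 49 + 1 / y ^ 30) :
    4 / 3 * (K * r) * (2 * y ^ 3) + 400 * K * y ^ 16 * r ≤
      1000 * K / y * X + 1000 * K / y := by
  have hy0 : 0 < y := by linarith
  have b4 : 4 / 3 * (K * r) * (2 * y ^ 3) + 400 * K * y ^ 16 * r ≤
      403 * K * y ^ 16 * r := by
    have h1 : y ^ 3 ≤ y ^ 16 := pow_le_pow_right₀ hy (by norm_num)
    have h2 : 0 ≤ K * r := by positivity
    have h3 := mul_le_mul_of_nonneg_left h1 h2
    have h4 : 0 ≤ K * r * y ^ 16 := by positivity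
    linarith
  have h1 : 403 * K * y ^ 16 * r ≤ 403 * K * y ^ 16 * (X / y ^ 49 + 1 / y ^ 30) :=
    mul_le_mul_of_nonneg_left hr (by positivity)
  have h2 : 403 * K * y ^ 16 * (X / y ^ 49 + 1 / y ^ 30) = 403 * K * X / y ^ 33 +
      403 * K / y ^ 14 := by
    field_simp
  have h3 : 403 * K * X / y ^ 33 ≤ 403 * K * X / y := div_le_div_of_nonneg_left
    (by positivity) hy0 (le_self_pow₀ hy (by norm_num))
  have h4 : 403 * K / y ^ 14 ≤ 403 * K / y := div_le_div_of_nonneg_left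
    (by positivity) hy0 (le_self_pow₀ hy (by norm_num))
  have h5 : 403 * K * X / y ≤ 1000 * K / y * X := by
    have : 1000 * K / y * X = 1000 * K * X / y := by ring
    rw [this]
    refine div_le_div_of_nonneg_right ?_ hy0.le
    have := mul_nonneg hK hX
    linarith
  have h6 : 403 * K / y ≤ 1000 * K / y := by
    refine div_le_div_of_nonneg_right ?_ hy0.le
    linarith
  linarith

lemma big_alg {K y s t q X R1 R4 Er : ℝ} {n L : ℕ} (hK : 0 ≤ K) (hn : (n : ℝ) = y ^ 1000)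
    (hy : 4 ≤ y) (hs0 : 0 ≤ s) (hs1 : s ≤ 1) (ht0 : 0 ≤ t) (ht1 : 1 / y ≤ 1 - t)
    (hq : 1 ≤ q) (hL : (L : ℝ) + 1 ≤ y ^ 2)
    (hqL : (q ^ L) ^ 2 ≤ 1 + s)
    (hρ : ∀ k ≤ L, ((n : ℝ) / (n - (2 * L + 2))) ^ k ≤ 1 + s)
    (hT : (n : ℝ) * t ^ (L + 1) ≤ 1 / y) (hEr0 : 0 ≤ Er) (hEr : Er ≤ 1 / y ^ 10)
    (hR1 : R1 ≤ 2 / y ^ 24) (hR10 : 0 ≤ R1) (hR40 : 0 ≤ R4) (hX : 0 ≤ X)
    (hR4 : n * R4 ≤ X / y ^ 49 + 1 / y ^ 30)
    (h : BigIneq K n L t q X R1 R4 Er y) :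
    X ≤ (1 + s) ^ 2 * (1 + 1 / y) * ((1 + t) / (1 - t) ^ 3) + (4000 + 1000 * K) / y +
      1000 * K / y * X := by
  have hy0 : 0 < y := by linarith
  have hy1 : 1 ≤ y := by linarith
  have ht1' : 0 < 1 - t := lt_of_lt_of_le (by positivity) ht1
  have ht1'' : t < 1 := by linarith
  obtain ⟨M, hM⟩ : ∃ M, M = (1 + t) / (1 - t) ^ 3 := ⟨_, rfl⟩
  have hM1 : 0 ≤ M := by rw [hM]; positivity
  have hMy : M ≤ 2 * y ^ 3 := by
    rw [hM, div_le_iff₀ (by positivity)]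
    have h1 : (1 / y) ^ 3 ≤ (1 - t) ^ 3 := pow_le_pow_left₀ (by positivity) ht1 3
    have h2 : y ^ 3 * (1 / y) ^ 3 = 1 := by field_simp
    have h3 : y ^ 3 * (1 / y) ^ 3 ≤ y ^ 3 * (1 - t) ^ 3 :=
      mul_le_mul_of_nonneg_left h1 (by positivity)
    linarith
  obtain ⟨l, hl⟩ : ∃ l : ℝ, l = (L : ℝ) + 1 := ⟨_, rfl⟩
  have hl1 : 1 ≤ l := by rw [hl]; linarith [(Nat.cast_nonneg L : (0 : ℝ) ≤ L)]
  rw [← hl] at hL
  have hn0' : (0 : ℝ) < n := by rw [hn]; positivity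
  have hn0 : 0 < n := by exact_mod_cast hn0'
  have hLn : L + 1 ≤ n := by
    have h1 : (L : ℝ) + 1 ≤ n := by
      rw [hn, ← hl]
      refine hL.trans ?_
      exact pow_le_pow_right₀ hy1 (by norm_num)
    exact_mod_cast h1
  have he := er0_sq_le hn0 hLn
  rw [← hl] at he
  obtain ⟨e2, he2⟩ : ∃ e2, e2 = er0 n L ^ 2 := ⟨_, rfl⟩
  have he20 : 0 ≤ e2 := by rw [he2]; positivity
  rw [← he2] at he
  obtain ⟨r, hr⟩ : ∃ r : ℝ, r = n * R4 := ⟨_, rfl⟩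
  have hr0 : 0 ≤ r := by rw [hr]; positivity
  have hqk : ∀ k ≤ L, ((k + 1 : ℝ) * q ^ k) ^ 2 ≤ (k + 1) ^ 2 * (1 + s) := by
    intro k hk
    rw [mul_pow]
    refine mul_le_mul_of_nonneg_left ?_ (by positivity)
    refine le_trans ?_ hqL
    exact pow_le_pow_left₀ (by positivity) (pow_le_pow_right₀ hq hk) 2
  have hS := sum_sq_geom_le ht0 ht1'' L
  rw [← hM] at hS
  have htk : ∑ k ∈ range (L + 1), t ^ k ≤ l := by
    calc ∑ k ∈ range (L + 1), t ^ k ≤ ∑ k ∈ range (L + 1), (1 : ℝ) :=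
          sum_le_sum fun k _ => pow_le_one₀ ht0 ht1''.le
      _ = l := by rw [sum_const, card_range, hl]; simp
  have key : ∀ k ∈ range (L + 1), ((n : ℝ) / (n - (2 * L + 2))) ^ k *
    ((1 + 1 / y) * (t ^ k * (((k + 1) * q ^ k) ^ 2 + Er)) +
      (1 + y) * (er0 n L ^ 2 * ((L + 1) * (n * ((L + 1) * q ^ L) ^ 2 * R1 + Er))) +
      1 / 3 * (t ^ k * (K * (((k + 1) * q ^ k) ^ 2 * (n * R4)) + Er)) +
      1 / 3 * (er0 n L ^ 2 * ((L + 1) * (K * (n * ((L + 1) * q ^ L) ^ 2 * (n * R4)) + Er)))) ≤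
    (1 + s) * ((1 + 1 / y) * (t ^ k * ((k + 1) ^ 2 * (1 + s) + Er)) +
      (1 + y) * (e2 * (l * (n * (l ^ 2 * (1 + s)) * R1 + Er))) +
      1 / 3 * (t ^ k * (K * ((k + 1) ^ 2 * (1 + s) * r) + Er)) +
      1 / 3 * (e2 * (l * (K * (n * (l ^ 2 * (1 + s)) * r) + Er)))) := by
    intro k hk
    have hk' : k ≤ L := Nat.lt_succ_iff.1 (mem_range.1 hk)
    have q1 := hqk k hk'
    have q2 := hqk L le_rfl
    rw [← hr, ← he2]
    rw [← hl] at q2 ⊢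
    have hrk := hρ k hk'
    gcongr
  have h' := h.trans (add_le_add_right (sum_le_sum key) _)
  rw [big_sum s y t Er K r l _ _ L hl] at h'
  have b1 := big_main hK hy1 hs0 hs1 hr0 hM1 hMy hS
  have b2 := big_small (T := ∑ k ∈ range (L + 1), t ^ k) hy1 hs0 hs1 hEr0 hEr
    (sum_nonneg fun _ _ => by positivity) (htk.trans hL)
  have b3 := big_err (n := (n : ℝ)) hK hn hy hs0 hs1 hl1 hL hr0 hEr0 hEr hR1 hR10 he20 he
  rw [← hr] at hR4
  have b5 := big_r hK hy1 hX hr0 hR4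
  have b6 : (4000 + 1000 * K) / y = 4000 / y + 1000 * K / y := by ring
  have b7 : 1 / y + 6 / y + 1700 / y ≤ 4000 / y := by
    rw [← add_div, ← add_div]
    exact div_le_div_of_nonneg_right (by norm_num) hy0.le
  rw [← hM, b6]
  linarith

end Vale.Agent.P146.R2
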