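import Vale.Agent.P146.R2.H453.Avg
import Vale.Agent.P146.R2.H597.Num

/-!
# P146: from the averaged core inequality to the finite inequality
-/

open Finset

namespace Vale.Agent.P146.R2

open Vale.Agent.P146.H453

variable {n : ℕ}

/-- The core inequality, averaged over `j`. -/
theorem core_avg2 {t ρ θ θ' : ℝ} {L : ℕ} (ht : 0 < t) (ht1 : t ≤ 1) (hρ : 1 ≤ ρ)
    (hn : (n : ℝ) ≤ ρ * ((n : ℝ) - (2 * L + 2))) (hθ : 0 < θ) (hθ' : 0 < θ')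
    (C : Fin n → ℕ → Fam n)
    (hC : ∀ j k, C j (k + 1) = up (C j k) + dn (C j k) - pv (C j) k)
    (hP : ∀ j, Par j (C j 0)) (hE : ∀ j, Equi {j} (C j 0))
    (G : Fin n → Fin n → Pair n → Pair n → Pair n → ℕ → Fam n)
    (hG0 : ∀ j v e₁ e₂ e₃, G j v e₁ e₂ e₃ 0 =
      fun i α => C j 0 i (α + un e₁ + un e₂ + un e₃))
    (hG : ∀ j v e₁ e₂ e₃ k, G j v e₁ e₂ e₃ (k + 1) =
      up (G j v e₁ e₂ e₃ k) + dn (G j v e₁ e₂ e₃ k) - pv (G j v e₁ e₂ e₃) k) :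
    (n : ℝ)⁻¹ * ∑ j, ns t L (C j 0) ≤ ∑ k ∈ range (L + 1), ρ ^ k *
      ((1 + θ) * t ^ k * ((n : ℝ)⁻¹ * ∑ j, nv t L (C j k) j) +
        (1 + θ⁻¹) * ep n L k ^ 2 * ∑ l ∈ range (L + 1), (n : ℝ)⁻¹ * ∑ j, ns t L (C j l) +
        1 / 6 * ((1 + θ') * t ^ k * ((n : ℝ)⁻¹ * ∑ j, ∑ v, ∑ e₁ ∈ st v, ∑ e₂ ∈ st v,
            ∑ e₃ ∈ st v, nv t L (G j v e₁ e₂ e₃ k) v) +
          (1 + θ'⁻¹) * ep n L k ^ 2 * ∑ l ∈ range (L + 1), (n : ℝ)⁻¹ * ∑ j, ∑ v,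
            ∑ e₁ ∈ st v, ∑ e₂ ∈ st v, ∑ e₃ ∈ st v, ns t L (G j v e₁ e₂ e₃ l))) := by
  have hρ0 : 0 ≤ ρ := by linarith
  have hns : ∀ A : Fam n, 0 ≤ ns t L A := fun A => ns_nonneg ht.le L A
  have hnv : ∀ (A : Fam n) v, 0 ≤ nv t L A v := fun A v => nv_nonneg ht.le L A v
  -- the bounds `B` and `BG`
  set Bs : (ℕ → Fam n) → ℝ := fun D => ∑ l ∈ range (L + 1), ns t L (D l) with hBs
  have hBs0 : ∀ D, 0 ≤ Bs D := fun D => Finset.sum_nonneg fun l _ => hns _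
  have hBs1 : ∀ D : ℕ → Fam n, ∀ k ≤ L, ns t L (D k) ≤ Real.sqrt (Bs D) ^ 2 := by
    intro D k hk
    rw [Real.sq_sqrt (hBs0 D)]
    exact Finset.single_le_sum (f := fun l => ns t L (D l)) (fun l _ => hns _)
      (mem_range.2 (by omega))
  have h1 : ∀ j, ns t L (C j 0) ≤ ∑ k ∈ range (L + 1), ρ ^ k *
      (((1 + θ) * t ^ k * nv t L (C j k) j + (1 + θ⁻¹) * ep n L k ^ 2 * Bs (C j)) +
        1 / 6 * ∑ v, ∑ e₁ ∈ st v, ∑ e₂ ∈ st v, ∑ e₃ ∈ st v,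
          ((1 + θ') * t ^ k * nv t L (G j v e₁ e₂ e₃ k) v +
            (1 + θ'⁻¹) * ep n L k ^ 2 * Bs (G j v e₁ e₂ e₃))) := by
    intro j
    refine (core n j t ρ L ht ht1 hρ hn (C j) (hC j) (hP j) (hE j) (G j) (hG0 j) (hG j)
      (Real.sqrt (Bs (C j))) (fun v e₁ e₂ e₃ => Real.sqrt (Bs (G j v e₁ e₂ e₃)))
      (Real.sqrt_nonneg _) (fun _ _ _ _ => Real.sqrt_nonneg _) (hBs1 _)
      (fun v e₁ e₂ e₃ => hBs1 _)).trans ?_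
    refine Finset.sum_le_sum fun k _ => mul_le_mul_of_nonneg_left ?_ (pow_nonneg hρ0 k)
    refine add_le_add ?_ (mul_le_mul_of_nonneg_left ?_ (by norm_num))
    · refine (term_le ht.le hθ (hnv _ _) k).trans (le_of_eq ?_)
      rw [Real.sq_sqrt (hBs0 _)]
      rfl
    · have h2 : ∀ v, ∑ e₁ ∈ st v, ∑ e₂ ∈ st v, ∑ e₃ ∈ st v,
          (Real.sqrt t ^ k * Real.sqrt (nv t L (G j v e₁ e₂ e₃ k) v) +
            (Real.sqrt (L / n) + k * eta n L) * Real.sqrt (Bs (G j v e₁ e₂ e₃))) ^ 2 ≤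
          ∑ e₁ ∈ st v, ∑ e₂ ∈ st v, ∑ e₃ ∈ st v,
          ((1 + θ') * t ^ k * nv t L (G j v e₁ e₂ e₃ k) v +
            (1 + θ'⁻¹) * ep n L k ^ 2 * Bs (G j v e₁ e₂ e₃)) := by
        intro v
        refine Finset.sum_le_sum fun e₁ _ => Finset.sum_le_sum fun e₂ _ =>
          Finset.sum_le_sum fun e₃ _ => ?_
        refine (term_le ht.le hθ' (hnv _ _) k).trans (le_of_eq ?_)
        rw [Real.sq_sqrt (hBs0 _)]
        rfl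
      refine le_trans (sum_le_sum_of_subset_of_nonneg (erase_subset _ _) fun v _ _ => ?_)
        (Finset.sum_le_sum fun v _ => h2 v)
      exact Finset.sum_nonneg fun _ _ => Finset.sum_nonneg fun _ _ =>
        Finset.sum_nonneg fun _ _ => sq_nonneg _
  have h2 : (n : ℝ)⁻¹ * ∑ j, ns t L (C j 0) ≤ (n : ℝ)⁻¹ * ∑ j : Fin n,
      ∑ k ∈ range (L + 1), ρ ^ k *
      (((1 + θ) * t ^ k * nv t L (C j k) j + (1 + θ⁻¹) * ep n L k ^ 2 * Bs (C j)) +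
        1 / 6 * ∑ v, ∑ e₁ ∈ st v, ∑ e₂ ∈ st v, ∑ e₃ ∈ st v,
          ((1 + θ') * t ^ k * nv t L (G j v e₁ e₂ e₃ k) v +
            (1 + θ'⁻¹) * ep n L k ^ 2 * Bs (G j v e₁ e₂ e₃))) :=
    mul_le_mul_of_nonneg_left (Finset.sum_le_sum fun j _ => h1 j) (by positivity)
  refine h2.trans (le_of_eq ?_)
  rw [Finset.sum_comm, Finset.mul_sum]
  refine Finset.sum_congr rfl fun k _ => ?_
  have e1 : ∑ l ∈ range (L + 1), (n : ℝ)⁻¹ * ∑ j, ns t L (C j l) =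
      (n : ℝ)⁻¹ * ∑ j, Bs (C j) := by
    rw [← Finset.mul_sum, Finset.sum_comm]
  have e2 : ∑ l ∈ range (L + 1), (n : ℝ)⁻¹ * ∑ j, ∑ v,
      ∑ e₁ ∈ st v, ∑ e₂ ∈ st v, ∑ e₃ ∈ st v, ns t L (G j v e₁ e₂ e₃ l) =
      (n : ℝ)⁻¹ * ∑ j, ∑ v, ∑ e₁ ∈ st v, ∑ e₂ ∈ st v, ∑ e₃ ∈ st v, Bs (G j v e₁ e₂ e₃) := by
    rw [← Finset.mul_sum, Finset.sum_comm]
    congr 1
    refine Finset.sum_congr rfl fun j _ => ?_
    rw [Finset.sum_comm]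
    refine Finset.sum_congr rfl fun v _ => ?_
    rw [Finset.sum_comm]
    refine Finset.sum_congr rfl fun e₁ _ => ?_
    rw [Finset.sum_comm]
    refine Finset.sum_congr rfl fun e₂ _ => ?_
    rw [Finset.sum_comm]
  rw [e1, e2]
  simp only [Finset.sum_add_distrib, ← Finset.mul_sum]
  ring



lemma ep_le_er0 {L k : ℕ} (hk : k ≤ L) : ep n L k ≤ er0 n L := by
  unfold ep er0
  have h1 : 0 ≤ eta n L := by unfold eta; positivity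
  have h2 : (k : ℝ) ≤ L := by exact_mod_cast hk
  have := mul_le_mul_of_nonneg_right h2 h1
  linarith

/-- **The finite inequality.** -/
theorem glue {t q X R1 R4 Er K y : ℝ} {L : ℕ} (ht : 0 < t) (ht1 : t ≤ 1) (hq : 1 ≤ q)
    (hy : 1 ≤ y) (hpos : 0 < (n : ℝ) - (2 * L + 2)) (hEr : 0 ≤ Er) (hR1 : 0 ≤ R1)
    (hR4 : 0 ≤ R4) (hK : 0 ≤ K)
    (C : Fin n → ℕ → Fam n)
    (hC : ∀ j k, C j (k + 1) = up (C j k) + dn (C j k) - pv (C j) k)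
    (hP : ∀ j, Par j (C j 0)) (hE : ∀ j, Equi {j} (C j 0))
    (G : Fin n → Fin n → Pair n → Pair n → Pair n → ℕ → Fam n)
    (hG0 : ∀ j v e₁ e₂ e₃, G j v e₁ e₂ e₃ 0 =
      fun i α => C j 0 i (α + un e₁ + un e₂ + un e₃))
    (hG : ∀ j v e₁ e₂ e₃ k, G j v e₁ e₂ e₃ (k + 1) =
      up (G j v e₁ e₂ e₃ k) + dn (G j v e₁ e₂ e₃ k) - pv (G j v e₁ e₂ e₃) k)
    (hT : X ≤ n * t ^ (L + 1) + (n : ℝ)⁻¹ * ∑ j, ns t L (C j 0))
    (h1 : ∀ k ≤ L, (n : ℝ)⁻¹ * ∑ j, nv t L (C j k) j ≤ ((k + 1) * q ^ k) ^ 2 + Er)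
    (h2 : ∀ k ≤ L, (n : ℝ)⁻¹ * ∑ j, ns t L (C j k) ≤ n * ((k + 1) * q ^ k) ^ 2 * R1 + Er)
    (h3 : ∀ k ≤ L, (n : ℝ)⁻¹ * ∑ j, ∑ v, ∑ e₁ ∈ st v, ∑ e₂ ∈ st v, ∑ e₃ ∈ st v,
      nv t L (G j v e₁ e₂ e₃ k) v ≤ K * (((k + 1) * q ^ k) ^ 2 * (n * R4)) + Er)
    (h4 : ∀ k ≤ L, (n : ℝ)⁻¹ * ∑ j, ∑ v, ∑ e₁ ∈ st v, ∑ e₂ ∈ st v, ∑ e₃ ∈ st v,
      ns t L (G j v e₁ e₂ e₃ k) ≤ K * (n * ((k + 1) * q ^ k) ^ 2 * (n * R4)) + Er) :
    BigIneq K n L t q X R1 R4 Er y := by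
  have hy0 : 0 < y := by linarith
  have hL0 : (0 : ℝ) ≤ L := Nat.cast_nonneg L
  have hn0 : (0 : ℝ) < n := by linarith
  obtain ⟨D, hD⟩ : ∃ D, D = (n : ℝ) - (2 * L + 2) := ⟨_, rfl⟩
  have hD0 : 0 < D := by rw [hD]; exact hpos
  have hρ : 1 ≤ (n : ℝ) / D := by
    rw [one_le_div hD0, hD]
    linarith
  have hn : (n : ℝ) ≤ (n : ℝ) / D * ((n : ℝ) - (2 * L + 2)) := by
    rw [← hD, div_mul_cancel₀ _ hD0.ne']
  have h := core_avg2 (θ := 1 / y) (θ' := 1) ht ht1 hρ hn (by positivity) one_pos C hC hP hE G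
    hG0 hG
  unfold BigIneq
  rw [← hD]
  refine hT.trans (add_le_add le_rfl (h.trans (Finset.sum_le_sum fun k hk => ?_)))
  rw [mem_range] at hk
  have hkL : k ≤ L := by omega
  have hq0 : 0 < q := by linarith
  have hmono : ∀ l ≤ L, ((l + 1 : ℝ) * q ^ l) ^ 2 ≤ ((L + 1 : ℝ) * q ^ L) ^ 2 := by
    intro l hl
    refine pow_le_pow_left₀ (by positivity) ?_ 2
    refine mul_le_mul ?_ (pow_le_pow_right₀ hq hl) (by positivity) (by positivity)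
    have : (l : ℝ) ≤ L := by exact_mod_cast hl
    linarith
  have hep : ep n L k ^ 2 ≤ er0 n L ^ 2 :=
    pow_le_pow_left₀ (ep_nonneg n L k) (ep_le_er0 hkL) 2
  have her : 0 ≤ er0 n L ^ 2 := sq_nonneg _
  have htk : 0 ≤ t ^ k := by positivity
  refine mul_le_mul_of_nonneg_left ?_ (by positivity)
  -- first term
  have a1 : (1 + 1 / y) * t ^ k * ((n : ℝ)⁻¹ * ∑ j, nv t L (C j k) j) ≤
      (1 + 1 / y) * (t ^ k * (((k + 1) * q ^ k) ^ 2 + Er)) := by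
    rw [mul_assoc]
    exact mul_le_mul_of_nonneg_left (mul_le_mul_of_nonneg_left (h1 k hkL) htk) (by positivity)
  -- second term
  have s2 : ∑ l ∈ range (L + 1), (n : ℝ)⁻¹ * ∑ j, ns t L (C j l) ≤
      (L + 1) * (n * ((L + 1) * q ^ L) ^ 2 * R1 + Er) := by
    refine (Finset.sum_le_sum (g := fun _ => n * ((L + 1 : ℝ) * q ^ L) ^ 2 * R1 + Er)
      fun l hl => ?_).trans (le_of_eq ?_)
    · rw [mem_range] at hl
      have hl' : l ≤ L := by omega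
      refine (h2 l hl').trans ?_
      have b1 := mul_le_mul_of_nonneg_left (hmono l hl') hn0.le
      have b2 := mul_le_mul_of_nonneg_right b1 hR1
      linarith
    · rw [sum_const, card_range, nsmul_eq_mul]
      push_cast
      ring
  have s20 : 0 ≤ ∑ l ∈ range (L + 1), (n : ℝ)⁻¹ * ∑ j, ns t L (C j l) :=
    Finset.sum_nonneg fun l _ => mul_nonneg (by positivity)
      (Finset.sum_nonneg fun j _ => ns_nonneg ht.le L _)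
  have a2 : (1 + (1 / y)⁻¹) * ep n L k ^ 2 * ∑ l ∈ range (L + 1), (n : ℝ)⁻¹ *
      ∑ j, ns t L (C j l) ≤
      (1 + y) * (er0 n L ^ 2 * ((L + 1) * (n * ((L + 1) * q ^ L) ^ 2 * R1 + Er))) := by
    rw [one_div, inv_inv, mul_assoc]
    exact mul_le_mul_of_nonneg_left (mul_le_mul hep s2 s20 her) (by linarith)
  -- third term
  have a3 : (1 + 1) * t ^ k * ((n : ℝ)⁻¹ * ∑ j, ∑ v, ∑ e₁ ∈ st v, ∑ e₂ ∈ st v, ∑ e₃ ∈ st v,
      nv t L (G j v e₁ e₂ e₃ k) v) ≤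
      2 * (t ^ k * (K * (((k + 1) * q ^ k) ^ 2 * (n * R4)) + Er)) := by
    have b := mul_le_mul_of_nonneg_left (h3 k hkL) htk
    rw [mul_assoc]
    linarith
  -- fourth term
  have s4 : ∑ l ∈ range (L + 1), (n : ℝ)⁻¹ * ∑ j, ∑ v, ∑ e₁ ∈ st v, ∑ e₂ ∈ st v,
      ∑ e₃ ∈ st v, ns t L (G j v e₁ e₂ e₃ l) ≤
      (L + 1) * (K * (n * ((L + 1) * q ^ L) ^ 2 * (n * R4)) + Er) := by
    refine (Finset.sum_le_sum (g := fun _ => K * (n * ((L + 1 : ℝ) * q ^ L) ^ 2 * (n * R4)) + Er)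
      fun l hl => ?_).trans (le_of_eq ?_)
    · rw [mem_range] at hl
      have hl' : l ≤ L := by omega
      refine (h4 l hl').trans ?_
      have b1 := mul_le_mul_of_nonneg_left (hmono l hl') hn0.le
      have b2 := mul_le_mul_of_nonneg_right b1 (mul_nonneg hn0.le hR4)
      have b3 := mul_le_mul_of_nonneg_left b2 hK
      linarith
    · rw [sum_const, card_range, nsmul_eq_mul]
      push_cast
      ring
  have s40 : 0 ≤ ∑ l ∈ range (L + 1), (n : ℝ)⁻¹ * ∑ j, ∑ v, ∑ e₁ ∈ st v, ∑ e₂ ∈ st v,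
      ∑ e₃ ∈ st v, ns t L (G j v e₁ e₂ e₃ l) :=
    Finset.sum_nonneg fun l _ => mul_nonneg (by positivity)
      (Finset.sum_nonneg fun j _ => Finset.sum_nonneg fun v _ => Finset.sum_nonneg fun e₁ _ =>
        Finset.sum_nonneg fun e₂ _ => Finset.sum_nonneg fun e₃ _ => ns_nonneg ht.le L _)
  have a4 : (1 + (1 : ℝ)⁻¹) * ep n L k ^ 2 * ∑ l ∈ range (L + 1), (n : ℝ)⁻¹ * ∑ j, ∑ v,
      ∑ e₁ ∈ st v, ∑ e₂ ∈ st v, ∑ e₃ ∈ st v, ns t L (G j v e₁ e₂ e₃ l) ≤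
      2 * (er0 n L ^ 2 * ((L + 1) * (K * (n * ((L + 1) * q ^ L) ^ 2 * (n * R4)) + Er))) := by
    have b := mul_le_mul hep s4 s40 her
    rw [inv_one, mul_assoc]
    linarith
  linarith

end Vale.Agent.P146.R2
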