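import Vale.Agent.P146.R2.H597.Asm
import Vale.Agent.P146.R2.H597.Glue
import Vale.Agent.P146.R2.H749.Fams
import Vale.Agent.P146.R2.H757.Hk
import Vale.Agent.P146.R2.H432.ErrNum
import Vale.Agent.P146.R2.H501.Num5

/-!
# P146: chaos of optimal order at every `β > 1`
-/

open MeasureTheory ProbabilityTheory Finset Filter Topology

namespace Vale.Agent.P146.R2

open Vale.Agent.P146 Vale.Agent.P146.Ub.Cv Vale.Agent.P146.H605 Vale.Agent.P146.H453

lemma crossMom_nonneg' (n : ℕ) (β : ℝ) (K : ℕ) (t : ℝ) : 0 ≤ H501.crossMom n β K t := by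
  rw [H501.crossMom_eq]
  have h := H501.gm_mono n β (f := fun _ _ => 0) (h := fun σ τ => |overlap n σ τ| ^ K)
    (fun σ τ => by positivity) t
  rwa [H501.gm_const n β 0 t] at h

/-- the finite inequality holds for large `n` -/
theorem fin_ev (β : ℝ) : ∀ᶠ n : ℕ in atTop, ∀ t : ℝ, 0 < t → 1 / zz0 n ^ 2 ≤ 1 - t →
    ∃ Er : ℝ, 0 ≤ Er ∧ Er ≤ 1 / zz0 n ^ 80 ∧
      BigIneq (2304 * β ^ 6) n (LL n t) t (qq n t) (n * crossOverlap n β t)
        (H501.crossMom n β 1 t) (H501.crossMom n β 4 t) Er (zz0 n ^ 8) := by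
  filter_upwards [params, H432.err_num' (2 * (1 + 2304 * β ^ 6)) 2, eventually_ge_atTop 1]
    with n hp herr hn t ht hτ
  obtain ⟨hz, hq1, hL, hqL, hρ, hpos, hT⟩ := hp t ht.le hτ
  have hz0 : 0 < zz0 n := by linarith
  have ht1 : t ≤ 1 := by
    have : 0 < 1 / zz0 n ^ 2 := by positivity
    linarith
  have hEr : ∀ k ≤ LL n t, (1 + 2304 * β ^ 6) * (n : ℝ) ^ 2 * (2 * H432.errQ n (qq n t) k) ≤
      1 / zz0 n ^ 80 := by
    intro k hk
    have h := herr t ht.le hτ k hk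
    refine le_trans (le_of_eq ?_) h
    ring
  refine ⟨1 / zz0 n ^ 80, by positivity, le_rfl, ?_⟩
  exact glue ht ht1 hq1 (one_le_pow₀ (by linarith)) hpos (by positivity)
    (crossMom_nonneg' n β 1 t) (crossMom_nonneg' n β 4 t) (by positivity)
    (CC β) (CC_rec β) (par_CC β) (equi_CC β) (GG β) (GG_zero β) (GG_rec β)
    (crossOverlap_low β hn ht.le ht1 (LL n t))
    (fun k hk => H757.h1form β hn hq1 ht.le ht1 (LL n t) k (hEr k hk))
    (fun k hk => H757.h2form β hn hq1 ht.le ht1 (LL n t) k (hEr k hk))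
    (fun k hk => H757.h3form β hn hq1 ht.le ht1 (LL n t) k (hEr k hk))
    (fun k hk => H757.h4form β hn hq1 ht.le ht1 (LL n t) k (hEr k hk))

/-- **Disorder chaos of optimal order.** -/
theorem main {β : ℝ} (hβ : 1 < β) : ∀ᶠ n : ℕ in atTop, ∀ t : ℝ, 0 ≤ t →
    1 / zz0 n ^ 2 ≤ 1 - t →
      n * crossOverlap n β t ≤ (1 + 1 / zz0 n) * ((1 + t) / (1 - t) ^ 3) ∧
      crossCov n β t ≤ β ^ 2 / 2 * ((1 + 1 / zz0 n) * t / (1 - t) ^ 2 - t) :=
  main_of hβ (by positivity) (fin_ev β) (H501.m5_num hβ) fun n j t => crossMom_nonneg' n β j t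

end Vale.Agent.P146.R2
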