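import Vale.Agent.P146.R2.Def
import Vale.Agent.P146.R2.HDef
import Vale.Agent.P146.H605.Gauge

/-!
# P146: parity and exchangeability of the Hermite coefficients of `⟨σ_v σ_j⟩`
-/

open MeasureTheory ProbabilityTheory Finset

namespace Vale.Agent.P146.R2

open Vale.Agent.P146 Vale.Agent.P146.H605 Vale.Agent.P146.H453

lemma he_sign {ε : ℝ} (hε : ε * ε = 1) (k : ℕ) (x : ℝ) : he k (ε * x) = ε ^ k * he k x := by
  induction k using Nat.twoStepInduction with
  | zero => simp
  | one => simp
  | more k h1 h2 =>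
    rw [he_succ_succ, he_succ_succ, h1, h2, pow_succ, pow_succ]
    linear_combination (((k : ℝ) + 1) * ε ^ k * he k x) * hε

section sym

variable {n : ℕ} (β : ℝ)

lemma avf_eq (f : (Fin n → ℤˣ) → ℝ) (g : Pair n → ℝ) :
    avf n β f g = ∑ σ, f σ * gibbs n β g σ := by
  unfold avf gav gibbs
  rw [Finset.sum_div]
  refine Finset.sum_congr rfl fun σ _ => ?_
  rw [← partitionFn_eq]
  unfold wt
  rw [ska_sum, add_zero]
  ring

lemma avf_flip (s : Fin n → ℤˣ) (f : (Fin n → ℤˣ) → ℝ) (g : Pair n → ℝ) :
    avf n β f (Gauge.flip s g) = avf n β (fun σ => f (s * σ)) g := by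
  rw [avf_eq, avf_eq]
  simp only [Gauge.gibbs_flip]
  refine Fintype.sum_equiv (Equiv.mulLeft s) _ _ fun σ => ?_
  have h : s * (s * σ) = σ := by
    funext i
    simp [← mul_assoc]
  simp only [Equiv.coe_mulLeft]
  rw [h]

lemma heM_flip (s : Fin n → ℤˣ) (α : MI n) (g : Pair n → ℝ) :
    heM α (Gauge.flip s g) = (∏ e, Gauge.sg s e ^ α e) * heM α g := by
  unfold heM Gauge.flip
  rw [← Finset.prod_mul_distrib]
  exact Finset.prod_congr rfl fun e _ => he_sign (Gauge.sg_sq s e) _ _

/-- the sign flip at one vertex -/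
def sv (v : Fin n) : Fin n → ℤˣ := Function.update 1 v (-1)

lemma sg_sv (v : Fin n) (e : Pair n) : Gauge.sg (sv v) e = if e ∈ st v then -1 else 1 := by
  have h2 := e.2
  unfold Gauge.sg sv
  by_cases h1 : e.1.1 = v
  · have h3 : e.1.2 ≠ v := by rw [← h1]; exact (ne_of_lt h2).symm
    rw [if_pos (mem_st.2 (Or.inl h1)), h1, Function.update_self, Function.update_of_ne h3]
    simp
  · by_cases h3 : e.1.2 = v
    · rw [if_pos (mem_st.2 (Or.inr h3)), h3, Function.update_self, Function.update_of_ne h1]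
      simp
    · rw [if_neg (by rw [mem_st]; tauto), Function.update_of_ne h1, Function.update_of_ne h3]
      simp

lemma prod_sg_sv (v : Fin n) (α : MI n) : ∏ e, Gauge.sg (sv v) e ^ α e = (-1) ^ deg α v := by
  have h : ∀ e, Gauge.sg (sv v) e ^ α e = if e ∈ st v then (-1 : ℝ) ^ α e else 1 := by
    intro e
    rw [sg_sv]
    split_ifs <;> simp
  simp_rw [h]
  rw [Finset.prod_ite_mem, Finset.univ_inter, Finset.prod_pow_eq_pow_sum]
  rfl

/-- the two-point Gibbs average -/
noncomputable def f2 (j v : Fin n) (g : Pair n → ℝ) : ℝ :=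
  avf n β (fun σ => sp σ v * sp σ j) g

lemma sp_sv_self (v : Fin n) (σ : Fin n → ℤˣ) : sp (sv v * σ) v = - sp σ v := by
  unfold sp sv
  simp

lemma sp_sv_ne {v j : Fin n} (h : j ≠ v) (σ : Fin n → ℤˣ) : sp (sv v * σ) j = sp σ j := by
  unfold sp sv
  simp [Function.update_of_ne h]

lemma f2_flip {v j : Fin n} (h : v ≠ j) (g : Pair n → ℝ) :
    f2 β j v (Gauge.flip (sv v) g) = - f2 β j v g := by
  unfold f2
  rw [avf_flip, avf_eq, avf_eq, ← Finset.sum_neg_distrib]
  refine Finset.sum_congr rfl fun σ _ => ?_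
  rw [sp_sv_self, sp_sv_ne h.symm]
  ring

lemma f2_dom (j v : Fin n) : Dom (f2 (n := n) β j v) := gav_dom _ _ _

lemma abs_f2_le (j v : Fin n) (g : Pair n → ℝ) : |f2 β j v g| ≤ 1 :=
  abs_gav_le _ _ (fun s => by rw [abs_mul, abs_sp, abs_sp, one_mul]) g

lemma continuous_he (k : ℕ) : Continuous (he k) := by
  induction k using Nat.twoStepInduction with
  | zero =>
    have : he 0 = fun _ => (1 : ℝ) := funext he_zero
    rw [this]; exact continuous_const
  | one =>
    have : he 1 = fun x => x := funext he_one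
    rw [this]; exact continuous_id
  | more k h1 h2 =>
    have : he (k + 2) = fun x => x * he (k + 1) x - (k + 1) * he k x := funext (he_succ_succ k)
    rw [this]
    exact (continuous_id.mul h2).sub (continuous_const.mul h1)

lemma continuous_heM {ι : Type*} [Fintype ι] (α : ι → ℕ) : Continuous (heM α) := by
  unfold heM
  exact continuous_finsetProd _ fun i _ => (continuous_he _).comp (continuous_apply i)

/-- **Parity.** -/
theorem co_f2_odd {v j : Fin n} (h : v ≠ j) (α : MI n) (hα : co (f2 β j v) α ≠ 0) :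
    Odd (deg α v) := by
  by_contra hodd
  rw [Nat.not_odd_iff_even] at hodd
  apply hα
  have hm := Gauge.measurePreserving_flip (sv v)
  have hc : Continuous fun g => f2 β j v g * heM α g :=
    (f2_dom β j v).cont.mul (continuous_heM α)
  have h1 := integral_map (μ := disorder n) hm.measurable.aemeasurable
    (f := fun g => f2 β j v g * heM α g) hc.aestronglyMeasurable
  rw [hm.map_eq] at h1
  have h2 : ∀ g, f2 β j v (Gauge.flip (sv v) g) * heM α (Gauge.flip (sv v) g) =
      - (f2 β j v g * heM α g) := by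
    intro g
    rw [f2_flip β h, heM_flip, prod_sg_sv, hodd.neg_one_pow]
    ring
  simp_rw [h2] at h1
  rw [integral_neg] at h1
  have h3 : co (f2 β j v) α = ∫ g, f2 β j v g * heM α g ∂(disorder n) := rfl
  rw [h3]
  linarith

/-! ### permutations of the sites -/

/-- the relabelled disorder -/
def rl (π : Equiv.Perm (Fin n)) (g : Pair n → ℝ) : Pair n → ℝ := fun e => g (pe π e)

lemma measurePreserving_rl (π : Equiv.Perm (Fin n)) :
    MeasurePreserving (rl π) (disorder n) (disorder n) := by
  have h := measurePreserving_piCongrLeft (α := fun _ : Pair n => ℝ)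
    (fun _ : Pair n => gaussianReal 0 1) (pe π).symm
  unfold disorder
  convert h using 1
  funext g e
  rw [MeasurableEquiv.piCongrLeft, MeasurableEquiv.coe_mk]
  simp [rl, Equiv.piCongrLeft_apply]

lemma ham_rl (π : Equiv.Perm (Fin n)) (g : Pair n → ℝ) (σ : Fin n → ℤˣ) :
    hamiltonian n (rl π g) σ = hamiltonian n g (fun i => σ (π.symm i)) := by
  unfold hamiltonian
  congr 1
  refine Fintype.sum_equiv (pe π) _ _ fun p => ?_
  unfold rl
  have h1 : (pe π p) = pf π p := rfl
  rw [h1]
  unfold pf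
  split_ifs with h
  · simp
  · simp only [Equiv.symm_apply_apply]
    ring

lemma part_rl (π : Equiv.Perm (Fin n)) (g : Pair n → ℝ) :
    partitionFn n β (rl π g) = partitionFn n β g := by
  unfold partitionFn
  simp only [ham_rl]
  exact Fintype.sum_equiv (Equiv.arrowCongr π (Equiv.refl _)) _ _ fun σ => rfl

lemma gibbs_rl (π : Equiv.Perm (Fin n)) (g : Pair n → ℝ) (σ : Fin n → ℤˣ) :
    gibbs n β (rl π g) σ = gibbs n β g (fun i => σ (π.symm i)) := by
  unfold gibbs
  rw [ham_rl, part_rl]

lemma f2_rl (π : Equiv.Perm (Fin n)) (j v : Fin n) (g : Pair n → ℝ) :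
    f2 β j v (rl π g) = f2 β (π j) (π v) g := by
  unfold f2
  rw [avf_eq, avf_eq]
  simp only [gibbs_rl]
  refine Fintype.sum_equiv (Equiv.arrowCongr π (Equiv.refl _)) _ _ fun σ => ?_
  simp [sp, Equiv.arrowCongr]
  rfl

lemma heM_rl (π : Equiv.Perm (Fin n)) (α : MI n) (g : Pair n → ℝ) :
    heM α (rl π g) = heM (fun e => α ((pe π).symm e)) g := by
  unfold heM rl
  refine Fintype.prod_equiv (pe π) _ _ fun e => ?_
  simp

/-- **Exchangeability.** -/
theorem co_f2_perm (π : Equiv.Perm (Fin n)) (j v : Fin n) (α : MI n) :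
    co (f2 β (π j) (π v)) (fun e => α ((pe π).symm e)) = co (f2 β j v) α := by
  have hm := measurePreserving_rl π
  have hc : Continuous fun g => f2 β j v g * heM α g :=
    (f2_dom β j v).cont.mul (continuous_heM α)
  have h1 := integral_map (μ := disorder n) hm.measurable.aemeasurable
    (f := fun g => f2 β j v g * heM α g) hc.aestronglyMeasurable
  rw [hm.map_eq] at h1
  have h3 : co (f2 β j v) α = ∫ g, f2 β j v g * heM α g ∂(disorder n) := rfl
  rw [h3, h1]
  refine integral_congr_ae (Filter.Eventually.of_forall fun g => ?_)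
  simp only [f2_rl, heM_rl]

theorem equi_f2 (j : Fin n) : Equi {j} (fun v α => co (f2 β j v) α) := by
  intro π hπ v α
  have hj : π j = j := hπ j (Finset.mem_singleton_self j)
  have h := co_f2_perm β π j v α
  rw [hj] at h
  exact h

end sym

end Vale.Agent.P146.R2
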